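import Mathlib

/-!
# Bang's plank theorem (relative to a hyperplane direction) and its version for measurable bases
-/

namespace Vale.Agent.P243lib

open MeasureTheory Set
open scoped ENNReal Pointwise

section BangSec

variable {F : Type*} [NormedAddCommGroup F] [InnerProductSpace ℝ F]

/-- `K` has width at least `w` in every unit direction orthogonal to `n`. -/
def WidthGE (n : F) (K : Set F) (w : ℝ) : Prop :=
  ∀ θ : F, ‖θ‖ = 1 → inner ℝ θ n = 0 → ∃ x ∈ K, ∃ y ∈ K, w ≤ inner ℝ θ (x - y)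

/-- `K` lies in a level set of the functional given by `n`. -/
def Flat (n : F) (K : Set F) : Prop := ∀ x ∈ K, ∀ y ∈ K, inner ℝ n (x - y) = 0

lemma chord [CompleteSpace F] {n : F} (hn : ‖n‖ = 1) {K : Set F} (hK : IsCompact K) (hKc : Convex ℝ K)
    (hflat : Flat n K) {w : ℝ} (hw : WidthGE n K w) (hw0 : 0 < w) {u : F} (hu : ‖u‖ = 1)
    (hun : inner ℝ u n = 0) : ∃ y ∈ K, y + w • u ∈ K := by
  by_contra hcon
  push Not at hcon
  have hD : w • u ∉ K - K := by
    rintro ⟨x, hx, y, hy, hxy⟩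
    apply hcon y hy
    have hxy' : x - y = w • u := hxy
    have e : y + w • u = x := by rw [← hxy']; abel
    rw [e]; exact hx
  have hDc : Convex ℝ (K - K) := hKc.sub hKc
  have hDcl : IsClosed (K - K) := by
    have hcomp : IsCompact (K - K) := by
      rw [← Set.sub_image_prod]
      exact (hK.prod hK).image continuous_sub
    exact hcomp.isClosed
  obtain ⟨f, r, hfr, hrf⟩ := geometric_hahn_banach_closed_point hDc hDcl hD
  set θ' : F := (InnerProductSpace.toDual ℝ F).symm f with hθ'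
  have hf : ∀ v, f v = inner ℝ θ' v := fun v => (InnerProductSpace.toDual_symm_apply).symm
  set c : ℝ := inner ℝ θ' n with hc
  set θ₁ : F := θ' - c • n with hθ₁
  have hnn : inner ℝ n n = (1 : ℝ) := by rw [real_inner_self_eq_norm_sq, hn]; norm_num
  have hθ₁n : inner ℝ θ₁ n = 0 := by
    rw [hθ₁, inner_sub_left, real_inner_smul_left, hnn, ← hc]; ring
  obtain ⟨x0, hx0, y0, hy0, _⟩ := hw u hu hun
  have h0 : (0 : F) ∈ K - K := ⟨x0, hx0, x0, hx0, sub_self x0⟩
  have hr0 : 0 < r := by have := hfr 0 h0; simpa using this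
  have hnu : inner ℝ n u = 0 := by rw [real_inner_comm]; exact hun
  have hfu : f (w • u) = w * inner ℝ θ₁ u := by
    rw [hf, real_inner_smul_right, hθ₁, inner_sub_left, real_inner_smul_left, hnu]; ring
  have hθ₁0 : θ₁ ≠ 0 := by
    intro h
    rw [h, inner_zero_left, mul_zero] at hfu
    linarith
  have hnorm : 0 < ‖θ₁‖ := norm_pos_iff.2 hθ₁0
  set θ : F := (‖θ₁‖)⁻¹ • θ₁ with hθ
  have hθ1 : ‖θ‖ = 1 := by
    rw [hθ, norm_smul, norm_inv, norm_norm, inv_mul_cancel₀ hnorm.ne']
  have hθn : inner ℝ θ n = 0 := by rw [hθ, real_inner_smul_left, hθ₁n, mul_zero]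
  obtain ⟨x, hx, y, hy, hxy⟩ := hw θ hθ1 hθn
  have hd : x - y ∈ K - K := ⟨x, hx, y, hy, rfl⟩
  have h1 : f (x - y) < r := hfr _ hd
  have h2 : f (x - y) = inner ℝ θ₁ (x - y) := by
    rw [hf, hθ₁, inner_sub_left, real_inner_smul_left, hflat x hx y hy]; ring
  have h3 : inner ℝ θ (x - y) = (‖θ₁‖)⁻¹ * inner ℝ θ₁ (x - y) := by
    rw [hθ, real_inner_smul_left]
  have h4 : inner ℝ θ₁ u ≤ ‖θ₁‖ := by
    have := real_inner_le_norm θ₁ u
    rw [hu, mul_one] at this; exact this
  have h5 : w * ‖θ₁‖ ≤ inner ℝ θ₁ (x - y) := by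
    rw [h3] at hxy
    have := mul_le_mul_of_nonneg_left hxy hnorm.le
    rw [← mul_assoc, mul_inv_cancel₀ hnorm.ne', one_mul] at this
    linarith
  have h6 : w * inner ℝ θ₁ u ≤ w * ‖θ₁‖ := mul_le_mul_of_nonneg_left h4 hw0.le
  linarith

/-- the set of centres of segments of half-length `h` in direction `u` inside `K` -/
def shrink (K : Set F) (u : F) (h : ℝ) : Set F := {x | x - h • u ∈ K ∧ x + h • u ∈ K}

lemma shrink_compact {K : Set F} (hK : IsCompact K) (u : F) (h : ℝ) : IsCompact (shrink K u h) := by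
  have hcl : IsClosed (shrink K u h) := by
    have h1 : IsClosed ((fun x : F => x - h • u) ⁻¹' K) :=
      hK.isClosed.preimage (by fun_prop)
    have h2 : IsClosed ((fun x : F => x + h • u) ⁻¹' K) :=
      hK.isClosed.preimage (by fun_prop)
    exact h1.inter h2
  have hsub : shrink K u h ⊆ (fun x : F => x + h • u) '' K := by
    intro x hx
    exact ⟨x - h • u, hx.1, sub_add_cancel _ _⟩
  exact (hK.image (by fun_prop)).of_isClosed_subset hcl hsub

lemma shrink_convex {K : Set F} (hKc : Convex ℝ K) (u : F) (h : ℝ) : Convex ℝ (shrink K u h) := by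
  intro x hx y hy a b ha hb hab
  refine ⟨?_, ?_⟩
  · have := hKc hx.1 hy.1 ha hb hab
    have e : a • (x - h • u) + b • (y - h • u) = a • x + b • y - h • u := by
      have : a • (x - h • u) + b • (y - h • u) = a • x + b • y - (a + b) • (h • u) := by
        rw [add_smul, smul_sub, smul_sub]; abel
      rw [this, hab, one_smul]
    rw [e] at this; exact this
  · have := hKc hx.2 hy.2 ha hb hab
    have e : a • (x + h • u) + b • (y + h • u) = a • x + b • y + h • u := by
      have : a • (x + h • u) + b • (y + h • u) = a • x + b • y + (a + b) • (h • u) := by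
        rw [add_smul, smul_add, smul_add]; abel
      rw [this, hab, one_smul]
    rw [e] at this; exact this

lemma shrink_flat {n : F} {K : Set F} (hflat : Flat n K) (u : F) (h : ℝ) :
    Flat n (shrink K u h) := by
  intro x hx y hy
  have := hflat _ hx.1 _ hy.1
  have e : x - h • u - (y - h • u) = x - y := by abel
  rw [e] at this; exact this

lemma shrink_width [CompleteSpace F] {n : F} (hn : ‖n‖ = 1) {K : Set F} (hK : IsCompact K) (hKc : Convex ℝ K)
    (hflat : Flat n K) {w : ℝ} (hw : WidthGE n K w) {u : F} (hu : ‖u‖ = 1)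
    (hun : inner ℝ u n = 0) {h : ℝ} (hh : 0 < h) (hhw : 2 * h ≤ w) :
    WidthGE n (shrink K u h) (w - 2 * h) := by
  have hw0 : 0 < w := by linarith
  obtain ⟨y, hy, hyw⟩ := chord hn hK hKc hflat hw hw0 hu hun
  intro θ hθ hθn
  obtain ⟨x, hx, x', hx', hxx⟩ := hw θ hθ hθn
  set lam : ℝ := 1 - 2 * h / w with hlam
  have hl0 : 0 ≤ lam := by
    rw [hlam, sub_nonneg, div_le_one hw0]; exact hhw
  have hl1 : 0 ≤ 1 - lam := by
    rw [hlam]; have : 0 ≤ 2 * h / w := by positivity
    linarith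
  have hlw : (1 - lam) * w = 2 * h := by rw [hlam]; field_simp; ring
  have key : ∀ k ∈ K, y + h • u + lam • (k - y) ∈ shrink K u h := by
    intro k hk
    refine ⟨?_, ?_⟩
    · have := hKc hy hk hl1 hl0 (by ring)
      have e : (1 - lam) • y + lam • k = y + h • u + lam • (k - y) - h • u := by
        rw [sub_smul, one_smul, smul_sub]; abel
      rw [e] at this; exact this
    · have := hKc hyw hk hl1 hl0 (by ring)
      have e : (1 - lam) • (y + w • u) + lam • k = y + h • u + lam • (k - y) + h • u := by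
        have e2 : (1 - lam) • (w • u) = (2 * h) • u := by rw [smul_smul, hlw]
        rw [smul_add, e2, sub_smul, one_smul, smul_sub, two_mul, add_smul]; abel
      rw [e] at this; exact this
  refine ⟨_, key x hx, _, key x' hx', ?_⟩
  have e : y + h • u + lam • (x - y) - (y + h • u + lam • (x' - y)) = lam • (x - x') := by
    rw [smul_sub, smul_sub, smul_sub]; abel
  rw [e, real_inner_smul_right]
  have : lam * w ≤ lam * inner ℝ θ (x - x') := mul_le_mul_of_nonneg_left hxx hl0
  have e3 : lam * w = w - 2 * h := by rw [hlam]; field_simp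
  linarith

lemma translate [CompleteSpace F] {ι : Type*} [DecidableEq ι] {n : F} (hn : ‖n‖ = 1) (u : ι → F)
    (h : ι → ℝ) (hu : ∀ j, ‖u j‖ = 1) (hun : ∀ j, inner ℝ (u j) n = 0) (hh : ∀ j, 0 ≤ h j)
    (s : Finset ι) :
    ∀ (K : Set F) (w : ℝ), IsCompact K → Convex ℝ K → Flat n K → WidthGE n K w → K.Nonempty →
      ∑ j ∈ s, 2 * h j ≤ w →
      ∃ p, ∀ ε : ι → ℝ, (∀ j, ε j = 1 ∨ ε j = -1) → p + ∑ j ∈ s, (ε j * h j) • u j ∈ K := by
  induction s using Finset.induction_on with
  | empty =>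
    intro K w _ _ _ _ hne _
    obtain ⟨p, hp⟩ := hne
    exact ⟨p, fun ε _ => by simpa using hp⟩
  | insert a s ha ih =>
    intro K w hK hKc hflat hw hne hsum
    rw [Finset.sum_insert ha] at hsum
    have hs0 : 0 ≤ ∑ j ∈ s, 2 * h j :=
      Finset.sum_nonneg (fun j _ => by have := hh j; linarith)
    rcases (hh a).eq_or_lt with h0 | hpos
    · have hsum' : ∑ j ∈ s, 2 * h j ≤ w := by rw [← h0] at hsum; linarith
      obtain ⟨p, hp⟩ := ih K w hK hKc hflat hw hne hsum'
      refine ⟨p, fun ε hε => ?_⟩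
      rw [Finset.sum_insert ha, ← h0]
      simpa using hp ε hε
    · have hhw : 2 * h a ≤ w := by linarith
      have hK' := shrink_compact hK (u a) (h a)
      have hKc' := shrink_convex hKc (u a) (h a)
      have hflat' := shrink_flat hflat (u a) (h a)
      have hw' := shrink_width hn hK hKc hflat hw (hu a) (hun a) hpos hhw
      have hne' : (shrink K (u a) (h a)).Nonempty := by
        obtain ⟨x, hx, _⟩ := hw' (u a) (hu a) (hun a)
        exact ⟨x, hx⟩
      obtain ⟨p, hp⟩ := ih (shrink K (u a) (h a)) (w - 2 * h a) hK' hKc' hflat' hw' hne'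
        (by linarith)
      refine ⟨p, fun ε hε => ?_⟩
      rw [Finset.sum_insert ha]
      have hmem := hp ε hε
      rcases hε a with h1 | h1
      · have h2 := hmem.2
        rw [h1, one_mul]
        have e : p + (h a • u a + ∑ j ∈ s, (ε j * h j) • u j)
            = p + ∑ j ∈ s, (ε j * h j) • u j + h a • u a := by abel
        rw [e]; exact h2
      · have h2 := hmem.1
        rw [h1]
        have e : p + ((-1 * h a) • u a + ∑ j ∈ s, (ε j * h j) • u j)
            = p + ∑ j ∈ s, (ε j * h j) • u j - h a • u a := by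
          rw [neg_one_mul, neg_smul]; abel
        rw [e]; exact h2

lemma bang_signs {ι : Type*} [Fintype ι] [DecidableEq ι] (u : ι → F) (h c : ι → ℝ)
    (hu : ∀ j, ‖u j‖ = 1) (hh : ∀ j, 0 ≤ h j) (p : F) :
    ∃ ε : ι → ℝ, (∀ j, ε j = 1 ∨ ε j = -1) ∧
      ∀ k, h k ≤ |inner ℝ (u k) (p + ∑ j, (ε j * h j) • u j) - c k| := by
  classical
  let sg : Bool → ℝ := fun b => if b then 1 else -1
  let S : (ι → Bool) → F := fun b => ∑ j, (sg (b j) * h j) • u j
  let Φ : (ι → Bool) → ℝ := fun b =>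
    ‖S b‖ ^ 2 + 2 * ∑ j, sg (b j) * h j * (inner ℝ (u j) p - c j)
  obtain ⟨b, -, hb⟩ := Finset.exists_max_image (Finset.univ : Finset (ι → Bool)) Φ
    ⟨fun _ => true, Finset.mem_univ _⟩
  have hsg : ∀ x : Bool, sg x = 1 ∨ sg x = -1 := by
    intro x; cases x <;> simp [sg]
  have hsgn : ∀ x : Bool, sg (!x) = -sg x := by
    intro x; cases x <;> simp [sg]
  refine ⟨fun j => sg (b j), fun j => hsg _, fun k => ?_⟩
  rcases (hh k).eq_or_lt with h0 | hpos
  · rw [← h0]; exact abs_nonneg _
  set b' : ι → Bool := Function.update b k (!b k) with hb'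
  have hmax : Φ b' ≤ Φ b := hb b' (Finset.mem_univ _)
  set R : F := ∑ j ∈ Finset.univ.erase k, (sg (b j) * h j) • u j with hR
  have hbk : sg (b' k) = -sg (b k) := by rw [hb', Function.update_self, hsgn]
  have hbj : ∀ j ∈ Finset.univ.erase k, b' j = b j := by
    intro j hj
    rw [hb', Function.update_of_ne (Finset.ne_of_mem_erase hj)]
  have hS : S b = (sg (b k) * h k) • u k + R :=
    (Finset.add_sum_erase Finset.univ (fun j => (sg (b j) * h j) • u j) (Finset.mem_univ k)).symm
  have hS' : S b' = (-(sg (b k)) * h k) • u k + R := by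
    have h1 : S b' = (sg (b' k) * h k) • u k
        + ∑ j ∈ Finset.univ.erase k, (sg (b' j) * h j) • u j :=
      (Finset.add_sum_erase Finset.univ (fun j => (sg (b' j) * h j) • u j)
        (Finset.mem_univ k)).symm
    have h3 : ∑ j ∈ Finset.univ.erase k, (sg (b' j) * h j) • u j = R :=
      Finset.sum_congr rfl (fun j hj => by rw [hbj j hj])
    rw [h1, hbk, h3]
  set L : ℝ := ∑ j ∈ Finset.univ.erase k, sg (b j) * h j * (inner ℝ (u j) p - c j) with hL
  have hlin : ∑ j, sg (b j) * h j * (inner ℝ (u j) p - c j)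
      = sg (b k) * h k * (inner ℝ (u k) p - c k) + L :=
    (Finset.add_sum_erase Finset.univ (fun j => sg (b j) * h j * (inner ℝ (u j) p - c j))
      (Finset.mem_univ k)).symm
  have hlin' : ∑ j, sg (b' j) * h j * (inner ℝ (u j) p - c j)
      = -(sg (b k)) * h k * (inner ℝ (u k) p - c k) + L := by
    have h1 : ∑ j, sg (b' j) * h j * (inner ℝ (u j) p - c j)
        = sg (b' k) * h k * (inner ℝ (u k) p - c k)
          + ∑ j ∈ Finset.univ.erase k, sg (b' j) * h j * (inner ℝ (u j) p - c j) :=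
      (Finset.add_sum_erase Finset.univ (fun j => sg (b' j) * h j * (inner ℝ (u j) p - c j))
        (Finset.mem_univ k)).symm
    have h3 : ∑ j ∈ Finset.univ.erase k, sg (b' j) * h j * (inner ℝ (u j) p - c j) = L :=
      Finset.sum_congr rfl (fun j hj => by rw [hbj j hj])
    rw [h1, hbk, h3]
  have hukk : inner ℝ (u k) (u k) = (1 : ℝ) := by
    rw [real_inner_self_eq_norm_sq, hu k]; norm_num
  set e : ℝ := sg (b k) with he
  have he2 : e = 1 ∨ e = -1 := hsg _
  have hn1 : ‖S b‖ ^ 2 = (e * h k) ^ 2 + 2 * (e * h k) * inner ℝ (u k) R + ‖R‖ ^ 2 := by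
    rw [hS, ← real_inner_self_eq_norm_sq, inner_add_left, inner_add_right, inner_add_right,
      real_inner_smul_left, real_inner_smul_right, real_inner_smul_left, real_inner_smul_right,
      hukk, real_inner_comm R (u k), real_inner_self_eq_norm_sq]
    ring
  have hn2 : ‖S b'‖ ^ 2 = (e * h k) ^ 2 - 2 * (e * h k) * inner ℝ (u k) R + ‖R‖ ^ 2 := by
    rw [hS', ← real_inner_self_eq_norm_sq, inner_add_left, inner_add_right, inner_add_right,
      real_inner_smul_left, real_inner_smul_right, real_inner_smul_left, real_inner_smul_right,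
      hukk, real_inner_comm R (u k), real_inner_self_eq_norm_sq]
    ring
  have hT : 0 ≤ e * (inner ℝ (u k) (p + R) - c k) := by
    have hΦ : ‖S b'‖ ^ 2 + 2 * ∑ j, sg (b' j) * h j * (inner ℝ (u j) p - c j)
        ≤ ‖S b‖ ^ 2 + 2 * ∑ j, sg (b j) * h j * (inner ℝ (u j) p - c j) := hmax
    rw [hn1, hn2, hlin, hlin'] at hΦ
    have h3 : 0 ≤ h k * (e * (inner ℝ (u k) p + inner ℝ (u k) R - c k)) := by nlinarith
    rw [inner_add_right]
    exact (mul_nonneg_iff_of_pos_left hpos).1 h3
  have hval : inner ℝ (u k) (p + ∑ j, (sg (b j) * h j) • u j) - c k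
      = (inner ℝ (u k) (p + R) - c k) + e * h k := by
    have h4 : ∑ j, (sg (b j) * h j) • u j = S b := rfl
    rw [h4, hS, inner_add_right, inner_add_right, inner_add_right, real_inner_smul_right, hukk]
    ring
  rw [hval]
  rcases he2 with h1 | h1
  · rw [h1] at hT ⊢
    have h5 : 0 ≤ inner ℝ (u k) (p + R) - c k := by linarith
    rw [abs_of_nonneg (by linarith)]; linarith
  · rw [h1] at hT ⊢
    have h5 : inner ℝ (u k) (p + R) - c k ≤ 0 := by linarith
    rw [abs_of_nonpos (by linarith)]; linarith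

/-- **Bang's plank theorem**, for planks whose normals are orthogonal to `n` and a convex set
lying in a level set of `n`. -/
theorem bang [CompleteSpace F] {ι : Type*} [Fintype ι] {n : F} (hn : ‖n‖ = 1) {K : Set F}
    (hK : IsCompact K) (hKc : Convex ℝ K) (hflat : Flat n K) {w : ℝ} (hw : WidthGE n K w)
    (hne : K.Nonempty) (u : ι → F) (c h : ι → ℝ) (hu : ∀ j, ‖u j‖ = 1)
    (hun : ∀ j, inner ℝ (u j) n = 0) (hh : ∀ j, 0 ≤ h j)
    (hcov : ∀ x ∈ K, ∃ j, |inner ℝ (u j) x - c j| ≤ h j) :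
    w ≤ ∑ j, 2 * h j := by
  classical
  by_contra hcon
  push Not at hcon
  obtain ⟨x0, hx0⟩ := hne
  obtain ⟨j0, _⟩ := hcov x0 hx0
  have hcard : 0 < (Fintype.card ι : ℝ) := by
    have : 0 < Fintype.card ι := Fintype.card_pos_iff.2 ⟨j0⟩
    exact_mod_cast this
  set η : ℝ := (w - ∑ j, 2 * h j) / (2 * Fintype.card ι) with hη
  have hη0 : 0 < η := div_pos (by linarith) (by positivity)
  set h' : ι → ℝ := fun j => h j + η with hh'
  have hh'0 : ∀ j, 0 ≤ h' j := fun j => by have := hh j; simp only [hh']; linarith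
  have hsum : ∑ j, 2 * h' j = w := by
    simp only [hh', mul_add, Finset.sum_add_distrib, Finset.sum_const, Finset.card_univ,
      nsmul_eq_mul]
    rw [hη]; field_simp; ring
  obtain ⟨p, hp⟩ := translate hn u h' hu hun hh'0 Finset.univ K w hK hKc hflat hw ⟨x0, hx0⟩
    hsum.le
  obtain ⟨ε, hε, hbig⟩ := bang_signs u h' c hu hh'0 p
  obtain ⟨j, hj⟩ := hcov _ (hp ε hε)
  have h6 := hbig j
  simp only [hh'] at h6
  linarith

/-- **Plank theorem for measurable bases**: if every point of `K` has, for some `i`, its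
coordinate along `a i` inside the set `S i`, then the total length of the sets `S i` is at least
the minimal width of `K`. -/
theorem bang_meas [CompleteSpace F] {n : F} (hn : ‖n‖ = 1) {K : Set F}
    (hK : IsCompact K) (hKc : Convex ℝ K) (hflat : Flat n K) {w : ℝ} (hw : WidthGE n K w)
    (hne : K.Nonempty) {m : ℕ} (a : Fin m → F) (S : Fin m → Set ℝ) (ha : ∀ i, ‖a i‖ = 1)
    (han : ∀ i, inner ℝ (a i) n = 0)
    (hcov : ∀ x ∈ K, ∃ i, inner ℝ (a i) x ∈ S i) :
    ENNReal.ofReal w ≤ ∑ i, volume (S i) := by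
  classical
  by_contra hcon
  push Not at hcon
  have hfin : ∀ i, volume (S i) ≠ ⊤ := by
    intro i hi
    have h1 : (∑ i, volume (S i)) = ⊤ := by
      rw [ENNReal.sum_eq_top]
      exact ⟨i, Finset.mem_univ _, hi⟩
    rw [h1] at hcon
    exact absurd hcon (not_lt.2 le_top)
  set t : Fin m → ℝ := fun i => (volume (S i)).toReal with ht
  have ht0 : ∀ i, 0 ≤ t i := fun i => ENNReal.toReal_nonneg
  have hte : ∀ i, volume (S i) = ENNReal.ofReal (t i) :=
    fun i => (ENNReal.ofReal_toReal (hfin i)).symm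
  have hsumt : ∑ i, t i < w := by
    have h1 : ∑ i, volume (S i) = ENNReal.ofReal (∑ i, t i) := by
      rw [ENNReal.ofReal_sum_of_nonneg (fun i _ => ht0 i)]
      exact Finset.sum_congr rfl (fun i _ => hte i)
    rw [h1] at hcon
    exact (ENNReal.ofReal_lt_ofReal_iff_of_nonneg (Finset.sum_nonneg (fun i _ => ht0 i))).1 hcon
  set ε : ℝ := (w - ∑ i, t i) / (m + 1) with hε
  have hε0 : 0 < ε := div_pos (by linarith) (by positivity)
  have hεm : ((m : ℝ) + 1) * ε = w - ∑ i, t i := by rw [hε]; field_simp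
  have hO : ∀ i, ∃ O : Set ℝ, S i ⊆ O ∧ IsOpen O ∧
      volume O < volume (S i) + ENNReal.ofReal ε := by
    intro i
    obtain ⟨U, hU1, hU2, hU3⟩ := Set.exists_isOpen_lt_add (μ := volume) (S i) (hfin i)
      (ENNReal.ofReal_pos.2 hε0).ne'
    exact ⟨U, hU1, hU2, hU3⟩
  choose O hSO hOo hOv using hO
  have hcover : K ⊆ ⋃ i, (fun x : F => inner ℝ (a i) x) ⁻¹' O i := by
    intro x hx
    obtain ⟨i, hi⟩ := hcov x hx
    exact mem_iUnion.2 ⟨i, hSO i hi⟩
  have hopen : ∀ i, IsOpen ((fun x : F => inner ℝ (a i) x) ⁻¹' O i) := by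
    intro i
    exact (hOo i).preimage (by fun_prop)
  obtain ⟨δ, hδ0, hδ⟩ := lebesgue_number_lemma_of_metric hK hopen hcover
  obtain ⟨R, hR⟩ := hK.isBounded.exists_norm_le
  set η : ℝ := δ / 2 with hη
  have hη0 : 0 < η := by positivity
  set N : ℤ := ⌈R / η⌉ + 1 with hN
  set P : Fin m → Finset ℤ := fun i =>
    (Finset.Icc (-N) N).filter (fun k : ℤ => Icc ((k : ℝ) * η) (((k : ℝ) + 1) * η) ⊆ O i)
    with hP
  set Q : Finset (Σ _ : Fin m, ℤ) := Finset.univ.sigma P with hQ
  have hcovQ : ∀ x ∈ K, ∃ j : ↥Q,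
      |inner ℝ (a j.1.1) x - ((j.1.2 : ℝ) + 1 / 2) * η| ≤ η / 2 := by
    intro x hx
    obtain ⟨i, hi⟩ := hδ x hx
    set τ : ℝ := inner ℝ (a i) x with hτ
    set k : ℤ := ⌊τ / η⌋ with hk
    have hk1 : (k : ℝ) * η ≤ τ := (le_div_iff₀ hη0).1 (Int.floor_le _)
    have hk2 : τ < ((k : ℝ) + 1) * η := (div_lt_iff₀ hη0).1 (Int.lt_floor_add_one _)
    have hτR : |τ| ≤ R := by
      have h1 := abs_real_inner_le_norm (a i) x
      rw [ha i, one_mul] at h1
      exact h1.trans (hR x hx)
    have hNR : R / η ≤ (N : ℝ) - 1 := by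
      rw [hN]; push_cast; have := Int.le_ceil (R / η); linarith
    have hkmem : k ∈ P i := by
      refine Finset.mem_filter.2 ⟨Finset.mem_Icc.2 ⟨?_, ?_⟩, ?_⟩
      · have h1 : -(R / η) ≤ τ / η := by
          rw [← neg_div]
          exact div_le_div_of_nonneg_right (by linarith [neg_abs_le τ]) hη0.le
        have h2 : τ / η < (k : ℝ) + 1 := Int.lt_floor_add_one _
        have h3 : (-(N : ℝ)) < (k : ℝ) := by linarith
        have h4 : -N < k := by exact_mod_cast h3
        exact h4.le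
      · have h1 : τ / η ≤ R / η :=
          div_le_div_of_nonneg_right (by linarith [le_abs_self τ]) hη0.le
        have h2 : (k : ℝ) ≤ τ / η := Int.floor_le _
        have h3 : (k : ℝ) ≤ (N : ℝ) := by linarith
        exact_mod_cast h3
      · intro s hs
        have hy : x + (s - τ) • a i ∈ Metric.ball x δ := by
          rw [Metric.mem_ball, dist_eq_norm]
          have e : x + (s - τ) • a i - x = (s - τ) • a i := by abel
          rw [e, norm_smul, ha i, mul_one, Real.norm_eq_abs]
          have h7 : |s - τ| ≤ η := by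
            rw [abs_le]
            constructor <;> nlinarith [hs.1, hs.2]
          have h8 : η < δ := by rw [hη]; linarith
          linarith
        have h5 := hi hy
        have haa : inner ℝ (a i) (a i) = (1 : ℝ) := by
          rw [real_inner_self_eq_norm_sq, ha i]; norm_num
        have e2 : inner ℝ (a i) (x + (s - τ) • a i) = s := by
          rw [inner_add_right, real_inner_smul_right, haa, ← hτ]; ring
        have h6 : inner ℝ (a i) (x + (s - τ) • a i) ∈ O i := h5
        rw [e2] at h6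
        exact h6
    refine ⟨⟨⟨i, k⟩, Finset.mem_sigma.2 ⟨Finset.mem_univ _, hkmem⟩⟩, ?_⟩
    change |τ - ((k : ℝ) + 1 / 2) * η| ≤ η / 2
    rw [abs_le]
    constructor <;> nlinarith
  have hB := bang (ι := ↥Q) hn hK hKc hflat hw hne (fun j => a j.1.1)
    (fun j => ((j.1.2 : ℝ) + 1 / 2) * η) (fun _ => η / 2) (fun j => ha _) (fun j => han _)
    (fun _ => by positivity) hcovQ
  have hsumQ : ∑ _j : ↥Q, 2 * (η / 2) = (Q.card : ℝ) * η := by
    rw [Finset.sum_const, Finset.card_univ, Fintype.card_coe, nsmul_eq_mul]; ring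
  have hcardQ : (Q.card : ℝ) = ∑ i, ((P i).card : ℝ) := by
    rw [hQ, Finset.card_sigma]; push_cast; rfl
  have hPi : ∀ i, ((P i).card : ℝ) * η ≤ t i + ε := by
    intro i
    have hsub : (⋃ k ∈ P i, Ioc ((k : ℝ) * η) (((k : ℝ) + 1) * η)) ⊆ O i := by
      intro s hs
      obtain ⟨k, hk, hs⟩ := mem_iUnion₂.1 hs
      exact (Finset.mem_filter.1 hk).2 (Ioc_subset_Icc_self hs)
    have hdisj : Set.PairwiseDisjoint (↑(P i) : Set ℤ)
        (fun k : ℤ => Ioc ((k : ℝ) * η) (((k : ℝ) + 1) * η)) := by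
      intro k _ k' _ hkk
      refine Set.disjoint_left.2 ?_
      intro s hs hs'
      rcases lt_or_gt_of_ne hkk with h | h
      · have h1 : (k : ℝ) + 1 ≤ (k' : ℝ) := by exact_mod_cast Int.add_one_le_iff.2 h
        have h2 := mul_le_mul_of_nonneg_right h1 hη0.le
        linarith [hs.2, hs'.1]
      · have h1 : (k' : ℝ) + 1 ≤ (k : ℝ) := by exact_mod_cast Int.add_one_le_iff.2 h
        have h2 := mul_le_mul_of_nonneg_right h1 hη0.le
        linarith [hs.1, hs'.2]
    have hvol : volume (⋃ k ∈ P i, Ioc ((k : ℝ) * η) (((k : ℝ) + 1) * η))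
        = ((P i).card : ℝ≥0∞) * ENNReal.ofReal η := by
      rw [measure_biUnion_finset hdisj (fun _ _ => measurableSet_Ioc)]
      have hc : ∀ k ∈ P i,
          volume (Ioc ((k : ℝ) * η) (((k : ℝ) + 1) * η)) = ENNReal.ofReal η := by
        intro k _
        rw [Real.volume_Ioc]; congr 1; ring
      rw [Finset.sum_congr rfl hc, Finset.sum_const, nsmul_eq_mul]
    have h1 : ((P i).card : ℝ≥0∞) * ENNReal.ofReal η ≤ ENNReal.ofReal (t i + ε) := by
      rw [← hvol, ENNReal.ofReal_add (ht0 i) hε0.le, ← hte i]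
      exact (measure_mono hsub).trans (hOv i).le
    have h2 : ((P i).card : ℝ≥0∞) * ENNReal.ofReal η
        = ENNReal.ofReal (((P i).card : ℝ) * η) := by
      rw [ENNReal.ofReal_mul (Nat.cast_nonneg _), ENNReal.ofReal_natCast]
    rw [h2] at h1
    exact (ENNReal.ofReal_le_ofReal_iff (by linarith [ht0 i])).1 h1
  have hfinal : w ≤ ∑ i, (t i + ε) := by
    calc w ≤ ∑ _j : ↥Q, 2 * (η / 2) := hB
      _ = (Q.card : ℝ) * η := hsumQ
      _ = ∑ i, ((P i).card : ℝ) * η := by rw [hcardQ, Finset.sum_mul]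
      _ ≤ ∑ i, (t i + ε) := Finset.sum_le_sum (fun i _ => hPi i)
  rw [Finset.sum_add_distrib, Finset.sum_const, Finset.card_univ, Fintype.card_fin,
    nsmul_eq_mul] at hfinal
  nlinarith

end BangSec

end Vale.Agent.P243lib
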