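import Vale.Agent.P243lib.Slicing
import Vale.Agent.P243lib.Bang

/-!
# Cylinders whose axes are parallel to a common plane

Slicing by planes parallel to all the axes turns the cylinders into strips; the plank theorem
in each slice and a sharp pointwise bound for concave width functions give the half-area bound.
-/

namespace Vale.Agent.P243lib

open MeasureTheory Set
open scoped ENNReal

lemma aff_concave (p q a b : ℝ) (h : ∀ z ∈ Icc a b, 0 ≤ p * z + q) :
    ConcaveOn ℝ (Icc a b) (fun z => max (p * z + q) 0) := by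
  refine ⟨convex_Icc _ _, ?_⟩
  intro x hx y hy s t hs ht hst
  have hxy : s • x + t • y ∈ Icc a b := (convex_Icc a b) hx hy hs ht hst
  have h3 := h _ hxy
  simp only [smul_eq_mul] at h3 ⊢
  rw [max_eq_left (h x hx), max_eq_left (h y hy), max_eq_left h3]
  have ht' : t = 1 - s := by linarith
  subst ht'
  apply le_of_eq
  ring

lemma aff_meas (p q : ℝ) : Measurable (fun z : ℝ => max (p * z + q) 0) :=
  ((measurable_const.mul measurable_id).add measurable_const).max measurable_const

/-- Sharp pointwise lower bound for a nonnegative concave function with given integral, at a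
point of the left half of the interval. -/
lemma concave_point_left {f : ℝ → ℝ} {z0 z1 c A : ℝ} (hf : ConcaveOn ℝ (Icc z0 z1) f)
    (hf0 : ∀ z, 0 ≤ f z) (hc0 : z0 < c) (hc1 : c ≤ (z0 + z1) / 2)
    (hA : ENNReal.ofReal A ≤ ∫⁻ z in Icc z0 z1, ENNReal.ofReal (f z)) :
    A * (2 * (c - z0)) ≤ f c * (z1 - z0) ^ 2 := by
  set d : ℝ := 2 * c - z0 with hd
  have hs0 : 0 < c - z0 := by linarith
  have hz0d : z0 ≤ d := by rw [hd]; linarith
  have hdz1 : d ≤ z1 := by rw [hd]; linarith
  have h01 : z0 ≤ z1 := hz0d.trans hdz1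
  set κ : ℝ := f c / (c - z0) with hκ
  have hκ0 : 0 ≤ κ := div_nonneg (hf0 c) hs0.le
  have hκs : κ * (c - z0) = f c := by rw [hκ]; field_simp
  have hc1' : ConcaveOn ℝ (Icc z0 d) f :=
    hf.subset (Icc_subset_Icc le_rfl hdz1) (convex_Icc _ _)
  have h1 := concave_upper hz0d hc1' hf0
  have e1 : (z0 + d) / 2 = c := by rw [hd]; ring
  rw [e1] at h1
  have hlin : ∀ z ∈ Icc d z1, 0 ≤ κ * z + -(κ * z0) := by
    intro z hz
    have : 0 ≤ κ * (z - z0) := mul_nonneg hκ0 (by linarith [hz.1])
    linarith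
  have h2 : ∫⁻ z in Icc d z1, ENNReal.ofReal (f z) ≤
      ∫⁻ z in Icc d z1, ENNReal.ofReal (max (κ * z + -(κ * z0)) 0) := by
    refine setLIntegral_mono' measurableSet_Icc ?_
    intro z hz
    apply ENNReal.ofReal_le_ofReal
    refine le_trans ?_ (le_max_left _ _)
    have hzc : c ≤ z := by have := hz.1; rw [hd] at this; linarith
    have hzz0 : 0 < z - z0 := by linarith
    set lam : ℝ := (c - z0) / (z - z0) with hlam
    have hl0 : 0 ≤ lam := div_nonneg hs0.le hzz0.le
    have hl1 : lam ≤ 1 := by rw [hlam, div_le_one hzz0]; linarith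
    have hz0mem : z0 ∈ Icc z0 z1 := left_mem_Icc.2 h01
    have hzmem : z ∈ Icc z0 z1 := ⟨by linarith, hz.2⟩
    have hcc := hf.2 hz0mem hzmem (sub_nonneg.2 hl1) hl0 (by ring)
    simp only [smul_eq_mul] at hcc
    have h4 : lam * (z - z0) = c - z0 := by rw [hlam]; field_simp
    have e : (1 - lam) * z0 + lam * z = c := by linarith
    rw [e] at hcc
    have h3 : lam * f z ≤ f c := by
      have := mul_nonneg (sub_nonneg.2 hl1) (hf0 z0)
      linarith
    have h5 : f z * (c - z0) ≤ f c * (z - z0) := by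
      calc f z * (c - z0) = (lam * f z) * (z - z0) := by rw [← h4]; ring
        _ ≤ f c * (z - z0) := mul_le_mul_of_nonneg_right h3 hzz0.le
    have h6 : κ * z + -(κ * z0) = f c * (z - z0) / (c - z0) := by rw [hκ]; field_simp; ring
    rw [h6, le_div_iff₀ hs0]
    exact h5
  have h3 := concave_upper hdz1 (aff_concave κ (-(κ * z0)) d z1 hlin) (fun z => le_max_right _ _)
  have hmax : max (κ * ((d + z1) / 2) + -(κ * z0)) 0 = κ * ((d + z1) / 2) + -(κ * z0) :=
    max_eq_left (hlin _ ⟨by linarith, by linarith⟩)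
  simp only [hmax] at h3
  have hunion : Icc z0 z1 = Icc z0 d ∪ Icc d z1 := (Icc_union_Icc_eq_Icc hz0d hdz1).symm
  have hn1 : 0 ≤ (d - z0) * f c := mul_nonneg (sub_nonneg.2 hz0d) (hf0 c)
  have hn2 : 0 ≤ (z1 - d) * (κ * ((d + z1) / 2) + -(κ * z0)) :=
    mul_nonneg (sub_nonneg.2 hdz1) (hlin _ ⟨by linarith, by linarith⟩)
  have htot : ENNReal.ofReal A ≤
      ENNReal.ofReal ((d - z0) * f c + (z1 - d) * (κ * ((d + z1) / 2) + -(κ * z0))) := by
    rw [ENNReal.ofReal_add hn1 hn2]
    calc ENNReal.ofReal A ≤ ∫⁻ z in Icc z0 z1, ENNReal.ofReal (f z) := hA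
      _ = ∫⁻ z in Icc z0 d ∪ Icc d z1, ENNReal.ofReal (f z) := by rw [← hunion]
      _ ≤ (∫⁻ z in Icc z0 d, ENNReal.ofReal (f z)) + ∫⁻ z in Icc d z1, ENNReal.ofReal (f z) :=
          lintegral_union_le _ _ _
      _ ≤ _ := add_le_add h1 (h2.trans h3)
  have hreal : A ≤ (d - z0) * f c + (z1 - d) * (κ * ((d + z1) / 2) + -(κ * z0)) :=
    (ENNReal.ofReal_le_ofReal_iff (add_nonneg hn1 hn2)).1 htot
  have hmul := mul_le_mul_of_nonneg_right hreal (by linarith : (0 : ℝ) ≤ 2 * (c - z0))
  have e : ((d - z0) * f c + (z1 - d) * (κ * ((d + z1) / 2) + -(κ * z0))) * (2 * (c - z0))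
      = f c * (z1 - z0) ^ 2 := by
    have e2 : (z1 - d) * (κ * ((d + z1) / 2) + -(κ * z0)) * (2 * (c - z0))
        = (z1 - d) * ((d + z1) - 2 * z0) * (κ * (c - z0)) := by ring
    rw [add_mul, e2, hκs, hd]; ring
  linarith

/-- Sharp pointwise lower bound for a nonnegative concave function with given integral. -/
lemma concave_point {f : ℝ → ℝ} {z0 z1 c A : ℝ} (hf : ConcaveOn ℝ (Icc z0 z1) f)
    (hf0 : ∀ z, 0 ≤ f z) (hc : c ∈ Icc z0 z1)
    (hA : ENNReal.ofReal A ≤ ∫⁻ z in Icc z0 z1, ENNReal.ofReal (f z)) :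
    2 * A * min (c - z0) (z1 - c) ≤ f c * (z1 - z0) ^ 2 := by
  have hsq : 0 ≤ f c * (z1 - z0) ^ 2 := mul_nonneg (hf0 c) (sq_nonneg _)
  rcases le_total c ((z0 + z1) / 2) with hmid | hmid
  · rw [min_eq_left (by linarith)]
    rcases hc.1.eq_or_lt with h | h
    · rw [← h, sub_self, mul_zero]
      rw [← h] at hsq
      exact hsq
    · have := concave_point_left hf hf0 h hmid hA
      linarith
  · rw [min_eq_right (by linarith)]
    rcases hc.2.eq_or_lt with h | h
    · rw [h, sub_self, mul_zero]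
      rw [h] at hsq
      exact hsq
    · have hgc : ConcaveOn ℝ (Icc z0 z1) (fun z => f (z0 + z1 - z)) := by
        refine ⟨convex_Icc _ _, ?_⟩
        intro x hx y hy s t hs ht hst
        have hx' : z0 + z1 - x ∈ Icc z0 z1 := ⟨by linarith [hx.2], by linarith [hx.1]⟩
        have hy' : z0 + z1 - y ∈ Icc z0 z1 := ⟨by linarith [hy.2], by linarith [hy.1]⟩
        have h := hf.2 hx' hy' hs ht hst
        simp only [smul_eq_mul] at h ⊢
        have e : s * (z0 + z1 - x) + t * (z0 + z1 - y) = z0 + z1 - (s * x + t * y) := by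
          have ht' : t = 1 - s := by linarith
          subst ht'; ring
        rw [e] at h
        exact h
      have hgA : ENNReal.ofReal A ≤ ∫⁻ z in Icc z0 z1, ENNReal.ofReal (f (z0 + z1 - z)) :=
        hA.trans (refl_lintegral z0 z1 (fun z => ENNReal.ofReal (f z))).symm.le
      have h5 := concave_point_left (c := z0 + z1 - c) hgc (fun z => hf0 _) (by linarith)
        (by linarith) hgA
      have e : f (z0 + z1 - (z0 + z1 - c)) = f c := by congr 1; ring
      simp only [e] at h5
      linarith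

section Core

variable {F : Type*} [NormedAddCommGroup F] [InnerProductSpace ℝ F]

/-- the pair of coordinates of `p` along `b` and `n` -/
noncomputable def proj2 (b n : F) (p : F) : ℝ × ℝ := (inner ℝ b p, inner ℝ n p)

lemma proj2_cont (b n : F) : Continuous (proj2 b n) := by
  unfold proj2
  fun_prop

lemma proj2_lin (b n : F) : IsLinearMap ℝ (proj2 b n) := by
  refine IsLinearMap.mk (fun x y => ?_) (fun c x => ?_)
  · simp only [proj2, inner_add_right]; rfl
  · simp only [proj2, real_inner_smul_right]; rfl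

/-- **Cylinders with axes parallel to a common plane**: half-area bound with respect to the
smallest shadow in directions parallel to that plane. -/
theorem coplanar_core [CompleteSpace F] (K : Set F) (hKc : IsCompact K) (hKv : Convex ℝ K)
    (hKne : K.Nonempty) (n : F) (hn : ‖n‖ = 1) {m : ℕ} (a : Fin m → F) (ha : ∀ i, ‖a i‖ = 1)
    (han : ∀ i, inner ℝ (a i) n = 0) (B : Fin m → Set (ℝ × ℝ))
    (hB : ∀ i, MeasurableSet (B i))
    (hcov : ∀ p ∈ K, ∃ i, proj2 (a i) n p ∈ B i) (A : ℝ)
    (hA : ∀ b : F, ‖b‖ = 1 → inner ℝ b n = 0 →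
      ENNReal.ofReal A ≤ volume (proj2 b n '' K)) :
    ENNReal.ofReal (A / 2) ≤ ∑ i, volume (B i) := by
  rcases le_or_gt A 0 with hA0 | hA0
  · rw [ENNReal.ofReal_of_nonpos (by linarith)]; exact zero_le
  set Z : Set ℝ := (fun p : F => inner ℝ n p) '' K with hZ
  have hZc : IsCompact Z := hKc.image (by fun_prop)
  have hZv : Convex ℝ Z :=
    hKv.is_linear_image (IsLinearMap.mk (fun x y => inner_add_right _ _ _)
      (fun c x => real_inner_smul_right _ _ _))
  have hZne : Z.Nonempty := hKne.image _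
  have hZI := eq_Icc_of_connected_compact (hZv.isConnected hZne) hZc
  set z0 := sInf Z with hz0
  set z1 := sSup Z with hz1
  have h01 : z0 ≤ z1 := by
    rw [hZI] at hZne
    exact nonempty_Icc.1 hZne
  have hDc : ∀ b : F, IsCompact (proj2 b n '' K) := fun b => hKc.image (proj2_cont b n)
  have hDv : ∀ b : F, Convex ℝ (proj2 b n '' K) :=
    fun b => hKv.is_linear_image (proj2_lin b n)
  have hDs : ∀ b : F, Prod.snd '' (proj2 b n '' K) = Icc z0 z1 := by
    intro b
    rw [← hZI, hZ, Set.image_image]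
    rfl
  have hconc : ∀ b : F, ConcaveOn ℝ (Icc z0 z1) (wid (proj2 b n '' K)) := by
    intro b
    have := wid_concave (hDc b) (hDv b)
    rwa [hDs b] at this
  have hint : ∀ b : F, ‖b‖ = 1 → inner ℝ b n = 0 →
      ENNReal.ofReal A ≤ ∫⁻ z in Icc z0 z1, ENNReal.ofReal (wid (proj2 b n '' K) z) := by
    intro b hb hbn
    have hsupp : (fun z => ENNReal.ofReal (wid (proj2 b n '' K) z)).support ⊆ Icc z0 z1 := by
      intro z hz
      by_contra hzn
      apply hz
      rw [← hDs b] at hzn
      simp [wid_zero hzn]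
    rw [setLIntegral_eq_of_support_subset (μ := volume) hsupp, wid_lintegral (hDc b)]
    exact hA b hb hbn
  obtain ⟨p0, hp0⟩ := hKne
  obtain ⟨i0, -⟩ := hcov p0 hp0
  have hLpos : z0 < z1 := by
    by_contra hcon
    have hL : z1 - z0 = 0 := by linarith
    have h1 := (hint (a i0) (ha i0) (han i0)).trans
      (concave_upper h01 (hconc (a i0)) (wid_nonneg _))
    rw [hL, zero_mul, ENNReal.ofReal_zero] at h1
    have h2 : A ≤ 0 := ENNReal.ofReal_eq_zero.1 (le_antisymm h1 zero_le)
    linarith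
  set L : ℝ := z1 - z0 with hL
  have hL0 : 0 < L := sub_pos.2 hLpos
  set κ : ℝ := 2 * A / L ^ 2 with hκ
  have hκ0 : 0 < κ := by positivity
  have hκL : κ * L ^ 2 = 2 * A := by rw [hκ]; field_simp
  set ω : ℝ → ℝ := fun z => κ * min (z - z0) (z1 - z) with hω
  have hωle : ∀ b : F, ‖b‖ = 1 → inner ℝ b n = 0 → ∀ z ∈ Icc z0 z1,
      ω z ≤ wid (proj2 b n '' K) z := by
    intro b hb hbn z hz
    have h := concave_point (hconc b) (wid_nonneg _) hz (hint b hb hbn)
    have h2 : ω z * L ^ 2 ≤ wid (proj2 b n '' K) z * L ^ 2 := by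
      calc ω z * L ^ 2 = (κ * L ^ 2) * min (z - z0) (z1 - z) := by simp only [hω]; ring
        _ = 2 * A * min (z - z0) (z1 - z) := by rw [hκL]
        _ ≤ _ := h
    exact le_of_mul_le_mul_right h2 (by positivity)
  set Ks : ℝ → Set F := fun z => K ∩ (fun p : F => inner ℝ n p) ⁻¹' {z} with hKs
  have hslice : ∀ z ∈ Icc z0 z1, ENNReal.ofReal (ω z) ≤ ∑ i, volume (slice (B i) z) := by
    intro z hz
    have hc : IsCompact (Ks z) :=
      hKc.inter_right (isClosed_singleton.preimage (by fun_prop))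
    have hv : Convex ℝ (Ks z) := by
      intro x hx y hy s t hs ht hst
      refine ⟨hKv hx.1 hy.1 hs ht hst, ?_⟩
      have hx2 : inner ℝ n x = z := hx.2
      have hy2 : inner ℝ n y = z := hy.2
      change inner ℝ n (s • x + t • y) = z
      rw [inner_add_right, real_inner_smul_right, real_inner_smul_right, hx2, hy2, ← add_mul,
        hst, one_mul]
    have hflat : Flat n (Ks z) := by
      intro x hx y hy
      have hx2 : inner ℝ n x = z := hx.2
      have hy2 : inner ℝ n y = z := hy.2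
      rw [inner_sub_right, hx2, hy2, sub_self]
    have hne : (Ks z).Nonempty := by
      rw [← hZI] at hz
      obtain ⟨p, hp, hpz⟩ := hz
      exact ⟨p, hp, hpz⟩
    have hw : WidthGE n (Ks z) (ω z) := by
      intro θ hθ hθn
      have h := hωle θ hθ hθn z hz
      rcases (wid_nonneg (proj2 θ n '' K) z).eq_or_lt with h0 | hpos
      · obtain ⟨p, hp⟩ := hne
        refine ⟨p, hp, p, hp, ?_⟩
        rw [sub_self, inner_zero_right]
        linarith
      · obtain ⟨α, β, hαβ, hI, hwI⟩ := wid_pos_Icc (hDc θ) (hDv θ) hpos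
        have hβ : β ∈ slice (proj2 θ n '' K) z := by rw [hI]; exact right_mem_Icc.2 hαβ.le
        have hα : α ∈ slice (proj2 θ n '' K) z := by rw [hI]; exact left_mem_Icc.2 hαβ.le
        obtain ⟨x, hx, hxe⟩ := hβ
        obtain ⟨y, hy, hye⟩ := hα
        have hx1 : inner ℝ θ x = β := congrArg Prod.fst hxe
        have hx2 : inner ℝ n x = z := congrArg Prod.snd hxe
        have hy1 : inner ℝ θ y = α := congrArg Prod.fst hye
        have hy2 : inner ℝ n y = z := congrArg Prod.snd hye
        refine ⟨x, ⟨hx, hx2⟩, y, ⟨hy, hy2⟩, ?_⟩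
        rw [inner_sub_right, hx1, hy1]
        linarith
    have hcovz : ∀ x ∈ Ks z, ∃ i, inner ℝ (a i) x ∈ slice (B i) z := by
      intro x hx
      obtain ⟨i, hi⟩ := hcov x hx.1
      refine ⟨i, ?_⟩
      have hx2 : inner ℝ n x = z := hx.2
      change (inner ℝ (a i) x, z) ∈ B i
      rw [← hx2]
      exact hi
    exact bang_meas hn hc hv hflat hw hne a (fun i => slice (B i) z) ha han hcovz
  set G : ℝ → ℝ≥0∞ := fun z => ∑ i, volume (slice (B i) z) with hG
  have hmeas : ∀ i, Measurable (fun z => volume (slice (B i) z)) :=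
    fun i => measurable_measure_prodMk_right (hB i)
  have hGint : ∫⁻ z, G z = ∑ i, volume (B i) := by
    simp only [hG]
    rw [lintegral_finsetSum _ (fun i _ => hmeas i)]
    refine Finset.sum_congr rfl (fun i _ => ?_)
    rw [Measure.volume_eq_prod, Measure.prod_apply_symm (hB i)]
    rfl
  set mid := (z0 + z1) / 2 with hmid
  have hz0mid : z0 ≤ mid := by rw [hmid]; linarith
  have hmidz1 : mid ≤ z1 := by rw [hmid]; linarith
  have hsplit : ∫⁻ z in Icc z0 z1, G z =
      (∫⁻ z in Icc z0 mid, G z) + ∫⁻ z in Icc mid z1, G z := by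
    rw [← Icc_union_Ioc_eq_Icc hz0mid hmidz1, lintegral_union measurableSet_Ioc]
    · congr 1
      exact setLIntegral_congr Ioc_ae_eq_Icc
    · rw [Set.disjoint_left]
      rintro z ⟨_, h1⟩ ⟨h2, _⟩
      exact absurd h1 (not_le.2 h2)
  have hleft : ENNReal.ofReal (A / 4) ≤ ∫⁻ z in Icc z0 mid, G z := by
    have hlin : ∀ z ∈ Icc z0 mid, 0 ≤ κ * z + -(κ * z0) := by
      intro z hz
      have : 0 ≤ κ * (z - z0) := mul_nonneg hκ0.le (by linarith [hz.1])
      linarith
    have h1 := concave_lower hz0mid (aff_concave κ (-(κ * z0)) z0 mid hlin)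
      (fun z => le_max_right _ _) (aff_meas κ (-(κ * z0)))
    have h2 : ∫⁻ z in Icc z0 mid, ENNReal.ofReal (max (κ * z + -(κ * z0)) 0) ≤
        ∫⁻ z in Icc z0 mid, G z := by
      refine setLIntegral_mono' measurableSet_Icc ?_
      intro z hz
      have hz' : z ∈ Icc z0 z1 := ⟨hz.1, hz.2.trans hmidz1⟩
      refine le_trans (ENNReal.ofReal_le_ofReal ?_) (hslice z hz')
      have e2 : min (z - z0) (z1 - z) = z - z0 :=
        min_eq_left (by have := hz.2; rw [hmid] at this; linarith)
      simp only [hω]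
      rw [max_eq_left (hlin z hz), e2]
      apply le_of_eq
      ring
    refine le_trans (ENNReal.ofReal_le_ofReal ?_) (h1.trans h2)
    have hg0 : 0 ≤ max (κ * z0 + -(κ * z0)) 0 := le_max_right _ _
    have hgm : κ * (L / 2) ≤ max (κ * mid + -(κ * z0)) 0 := by
      have e3 : κ * (L / 2) = κ * mid + -(κ * z0) := by rw [hmid, hL]; ring
      rw [e3]; exact le_max_left _ _
    have e : mid - z0 = L / 2 := by rw [hmid, hL]; ring
    rw [e]
    have h3 : (L / 2) * ((0 + κ * (L / 2)) / 2) ≤
        (L / 2) * ((max (κ * z0 + -(κ * z0)) 0 + max (κ * mid + -(κ * z0)) 0) / 2) :=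
      mul_le_mul_of_nonneg_left (by linarith) (by linarith)
    have e4 : (L / 2) * ((0 + κ * (L / 2)) / 2) = κ * L ^ 2 / 8 := by ring
    linarith
  have hright : ENNReal.ofReal (A / 4) ≤ ∫⁻ z in Icc mid z1, G z := by
    have hlin : ∀ z ∈ Icc mid z1, 0 ≤ -κ * z + κ * z1 := by
      intro z hz
      have : 0 ≤ κ * (z1 - z) := mul_nonneg hκ0.le (by linarith [hz.2])
      linarith
    have h1 := concave_lower hmidz1 (aff_concave (-κ) (κ * z1) mid z1 hlin)
      (fun z => le_max_right _ _) (aff_meas (-κ) (κ * z1))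
    have h2 : ∫⁻ z in Icc mid z1, ENNReal.ofReal (max (-κ * z + κ * z1) 0) ≤
        ∫⁻ z in Icc mid z1, G z := by
      refine setLIntegral_mono' measurableSet_Icc ?_
      intro z hz
      have hz' : z ∈ Icc z0 z1 := ⟨hz0mid.trans hz.1, hz.2⟩
      refine le_trans (ENNReal.ofReal_le_ofReal ?_) (hslice z hz')
      have e2 : min (z - z0) (z1 - z) = z1 - z :=
        min_eq_right (by have := hz.1; rw [hmid] at this; linarith)
      simp only [hω]
      rw [max_eq_left (hlin z hz), e2]
      apply le_of_eq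
      ring
    refine le_trans (ENNReal.ofReal_le_ofReal ?_) (h1.trans h2)
    have hg0 : 0 ≤ max (-κ * z1 + κ * z1) 0 := le_max_right _ _
    have hgm : κ * (L / 2) ≤ max (-κ * mid + κ * z1) 0 := by
      have e3 : κ * (L / 2) = -κ * mid + κ * z1 := by rw [hmid, hL]; ring
      rw [e3]; exact le_max_left _ _
    have e : z1 - mid = L / 2 := by rw [hmid, hL]; ring
    rw [e]
    have h3 : (L / 2) * ((κ * (L / 2) + 0) / 2) ≤
        (L / 2) * ((max (-κ * mid + κ * z1) 0 + max (-κ * z1 + κ * z1) 0) / 2) :=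
      mul_le_mul_of_nonneg_left (by linarith) (by linarith)
    have e4 : (L / 2) * ((κ * (L / 2) + 0) / 2) = κ * L ^ 2 / 8 := by ring
    linarith
  calc ENNReal.ofReal (A / 2) = ENNReal.ofReal (A / 4) + ENNReal.ofReal (A / 4) := by
        rw [← ENNReal.ofReal_add (by linarith) (by linarith)]; congr 1; ring
    _ ≤ (∫⁻ z in Icc z0 mid, G z) + ∫⁻ z in Icc mid z1, G z := add_le_add hleft hright
    _ = ∫⁻ z in Icc z0 z1, G z := hsplit.symm
    _ ≤ ∫⁻ z, G z := setLIntegral_le_lintegral _ _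
    _ = ∑ i, volume (B i) := hGint

end Core

end Vale.Agent.P243lib
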