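import Mathlib

/-!
# A Hall-type inequality for planar convex sets

For a compact convex set `K` in the plane with horizontal projection `[j0, j1]` and vertical
projection `[i0, i1]`, and measurable sets `U`, `V` of reals such that no point of `K` has
abscissa in `U` and ordinate in `V`, we prove
`|U ∩ [j0,j1]| ≤ (j1 - j0)/(i1 - i0) * |[i0,i1] \ V|`.
-/

namespace Vale.Agent.P243lib

open MeasureTheory Set

/-- one-sided algebraic inequality -/
lemma alg_one {q v ξ ξ' a b A B : ℝ}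
    (hA : 0 ≤ A) (hB : 0 ≤ B)
    (hξ1 : ξ ≤ q) (hξ'1 : ξ' ≤ q)
    (h1 : v * (A + a) ≤ ξ * A) (h2 : v * (B + b) ≤ ξ' * B) :
    v * (a + (A + B) + b) ≤ q * (A + B) := by
  nlinarith [mul_le_mul_of_nonneg_right hξ1 hA, mul_le_mul_of_nonneg_right hξ'1 hB]

/-- two-sided algebraic inequality -/
lemma alg_two {q v1 v2 ξ ξ' a b A1 B1 A2 B2 : ℝ}
    (hv1 : 0 ≤ v1) (hv2 : 0 ≤ v2) (ha : 0 ≤ a) (hb : 0 ≤ b)
    (hA1 : 0 < A1) (hB1 : 0 < B1) (hA2 : 0 < A2) (hB2 : 0 < B2)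
    (hδ : A1 + B1 = A2 + B2)
    (h1 : v1 * (A1 + a) ≤ ξ * A1) (h3 : v2 * (A2 + a) ≤ (q - ξ) * A2)
    (h2 : v1 * (B1 + b) ≤ ξ' * B1) (h4 : v2 * (B2 + b) ≤ (q - ξ') * B2) :
    (v1 + v2) * (a + (A1 + B1) + b) ≤ q * (A1 + B1) := by
  set s := v1 + v2 with hs
  have hs0 : 0 ≤ s := add_nonneg hv1 hv2
  have E1 : v1 * (A1 + a) * A2 + v2 * (A2 + a) * A1 ≤ q * A1 * A2 := by
    nlinarith [mul_le_mul_of_nonneg_right h1 hA2.le, mul_le_mul_of_nonneg_right h3 hA1.le]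
  have E2 : v1 * (B1 + b) * B2 + v2 * (B2 + b) * B1 ≤ q * B1 * B2 := by
    nlinarith [mul_le_mul_of_nonneg_right h2 hB2.le, mul_le_mul_of_nonneg_right h4 hB1.le]
  have E1' : a * (v1 * A2 + v2 * A1) ≤ (q - s) * (A1 * A2) := by
    rw [hs]; nlinarith [E1]
  have E2' : b * (v1 * B2 + v2 * B1) ≤ (q - s) * (B1 * B2) := by
    rw [hs]; nlinarith [E2]
  have CSA : s ^ 2 * (A1 * A2) ≤ (v1 * A2 + v2 * A1) * (v1 * A1 + v2 * A2) := by
    rw [hs]; nlinarith [mul_nonneg (mul_nonneg hv1 hv2) (sq_nonneg (A1 - A2))]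
  have CSB : s ^ 2 * (B1 * B2) ≤ (v1 * B2 + v2 * B1) * (v1 * B1 + v2 * B2) := by
    rw [hs]; nlinarith [mul_nonneg (mul_nonneg hv1 hv2) (sq_nonneg (B1 - B2))]
  have hAA : 0 < A1 * A2 := mul_pos hA1 hA2
  have hBB : 0 < B1 * B2 := mul_pos hB1 hB2
  have hwA : 0 ≤ v1 * A1 + v2 * A2 := by positivity
  have hwB : 0 ≤ v1 * B1 + v2 * B2 := by positivity
  have FA : a * s ^ 2 ≤ (q - s) * (v1 * A1 + v2 * A2) := by
    have h : a * s ^ 2 * (A1 * A2) ≤ (q - s) * (v1 * A1 + v2 * A2) * (A1 * A2) := by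
      calc a * s ^ 2 * (A1 * A2) = a * (s ^ 2 * (A1 * A2)) := by ring
        _ ≤ a * ((v1 * A2 + v2 * A1) * (v1 * A1 + v2 * A2)) :=
            mul_le_mul_of_nonneg_left CSA ha
        _ = (a * (v1 * A2 + v2 * A1)) * (v1 * A1 + v2 * A2) := by ring
        _ ≤ ((q - s) * (A1 * A2)) * (v1 * A1 + v2 * A2) :=
            mul_le_mul_of_nonneg_right E1' hwA
        _ = (q - s) * (v1 * A1 + v2 * A2) * (A1 * A2) := by ring
    exact le_of_mul_le_mul_right h hAA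
  have FB : b * s ^ 2 ≤ (q - s) * (v1 * B1 + v2 * B2) := by
    have h : b * s ^ 2 * (B1 * B2) ≤ (q - s) * (v1 * B1 + v2 * B2) * (B1 * B2) := by
      calc b * s ^ 2 * (B1 * B2) = b * (s ^ 2 * (B1 * B2)) := by ring
        _ ≤ b * ((v1 * B2 + v2 * B1) * (v1 * B1 + v2 * B2)) :=
            mul_le_mul_of_nonneg_left CSB hb
        _ = (b * (v1 * B2 + v2 * B1)) * (v1 * B1 + v2 * B2) := by ring
        _ ≤ ((q - s) * (B1 * B2)) * (v1 * B1 + v2 * B2) :=
            mul_le_mul_of_nonneg_right E2' hwB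
        _ = (q - s) * (v1 * B1 + v2 * B2) * (B1 * B2) := by ring
    exact le_of_mul_le_mul_right h hBB
  have hw : v1 * A1 + v2 * A2 + (v1 * B1 + v2 * B2) = s * (A1 + B1) := by
    have e : v2 * (A2 + B2) = v2 * (A1 + B1) := by rw [hδ]
    rw [hs]; linarith
  have hsum : (a + b) * s ^ 2 ≤ (q - s) * (s * (A1 + B1)) := by
    calc (a + b) * s ^ 2 = a * s ^ 2 + b * s ^ 2 := by ring
      _ ≤ (q - s) * (v1 * A1 + v2 * A2) + (q - s) * (v1 * B1 + v2 * B2) := add_le_add FA FB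
      _ = (q - s) * (v1 * A1 + v2 * A2 + (v1 * B1 + v2 * B2)) := by ring
      _ = (q - s) * (s * (A1 + B1)) := by rw [hw]
  have hδpos : 0 < A1 + B1 := add_pos hA1 hB1
  rcases eq_or_lt_of_le hs0 with h0 | hpos
  · rw [← h0, zero_mul]
    have hq : 0 ≤ q := by
      have h5 : 0 ≤ (q - s) * (A1 * A2) := le_trans (by positivity) E1'
      rw [← h0, sub_zero] at h5
      exact nonneg_of_mul_nonneg_left h5 hAA
    exact mul_nonneg hq hδpos.le
  · have h6 : (a + b) * s ≤ (q - s) * (A1 + B1) := by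
      have h : (a + b) * s * s ≤ (q - s) * (A1 + B1) * s := by
        calc (a + b) * s * s = (a + b) * s ^ 2 := by ring
          _ ≤ (q - s) * (s * (A1 + B1)) := hsum
          _ = (q - s) * (A1 + B1) * s := by ring
      exact le_of_mul_le_mul_right h hpos
    calc s * (a + (A1 + B1) + b) = (a + b) * s + s * (A1 + B1) := by ring
      _ ≤ (q - s) * (A1 + B1) + s * (A1 + B1) := by linarith
      _ = q * (A1 + B1) := by ring

/-- abscissae of the points of `K` of height at most `c` -/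
def XL (K : Set (ℝ × ℝ)) (c : ℝ) : Set ℝ := Prod.fst '' (K ∩ {p | p.2 ≤ c})

/-- abscissae of the points of `K` of height at least `d` -/
def XH (K : Set (ℝ × ℝ)) (d : ℝ) : Set ℝ := Prod.fst '' (K ∩ {p | d ≤ p.2})

lemma seg_mem {K : Set (ℝ × ℝ)} (hKv : Convex ℝ K) {P Q : ℝ × ℝ} (hP : P ∈ K) (hQ : Q ∈ K)
    {t : ℝ} (h0 : 0 ≤ t) (h1 : t ≤ 1) :
    ((1 - t) * P.1 + t * Q.1, (1 - t) * P.2 + t * Q.2) ∈ K := by
  have h := hKv hP hQ (sub_nonneg.2 h1) h0 (by ring)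
  have e : (1 - t) • P + t • Q = ((1 - t) * P.1 + t * Q.1, (1 - t) * P.2 + t * Q.2) := by
    ext <;> simp
  rwa [e] at h

lemma XL_compact {K : Set (ℝ × ℝ)} (hKc : IsCompact K) (c : ℝ) : IsCompact (XL K c) :=
  (hKc.inter_right (isClosed_le continuous_snd continuous_const)).image continuous_fst

lemma XH_compact {K : Set (ℝ × ℝ)} (hKc : IsCompact K) (d : ℝ) : IsCompact (XH K d) :=
  (hKc.inter_right (isClosed_le continuous_const continuous_snd)).image continuous_fst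

lemma XL_ord {K : Set (ℝ × ℝ)} (hKv : Convex ℝ K) (c : ℝ) : (XL K c).OrdConnected := by
  apply Convex.ordConnected
  have h1 : Convex ℝ (K ∩ {p : ℝ × ℝ | p.2 ≤ c}) := by
    refine hKv.inter ?_
    intro p hp q hq a b ha hb hab
    change (a • p + b • q).2 ≤ c
    have hp' : p.2 ≤ c := hp
    have hq' : q.2 ≤ c := hq
    have e : (a • p + b • q).2 = a * p.2 + b * q.2 := by simp
    rw [e]
    calc a * p.2 + b * q.2 ≤ a * c + b * c :=
          add_le_add (mul_le_mul_of_nonneg_left hp' ha) (mul_le_mul_of_nonneg_left hq' hb)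
      _ = c := by rw [← add_mul, hab, one_mul]
  exact h1.is_linear_image (IsLinearMap.mk (fun _ _ => rfl) (fun _ _ => rfl))

lemma XH_ord {K : Set (ℝ × ℝ)} (hKv : Convex ℝ K) (d : ℝ) : (XH K d).OrdConnected := by
  apply Convex.ordConnected
  have h1 : Convex ℝ (K ∩ {p : ℝ × ℝ | d ≤ p.2}) := by
    refine hKv.inter ?_
    intro p hp q hq a b ha hb hab
    change d ≤ (a • p + b • q).2
    have hp' : d ≤ p.2 := hp
    have hq' : d ≤ q.2 := hq
    have e : (a • p + b • q).2 = a * p.2 + b * q.2 := by simp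
    rw [e]
    calc d = a * d + b * d := by rw [← add_mul, hab, one_mul]
      _ ≤ a * p.2 + b * q.2 :=
          add_le_add (mul_le_mul_of_nonneg_left hp' ha) (mul_le_mul_of_nonneg_left hq' hb)
  exact h1.is_linear_image (IsLinearMap.mk (fun _ _ => rfl) (fun _ _ => rfl))


lemma XL_sub {K : Set (ℝ × ℝ)} {j0 j1 i0 i1 : ℝ}
    (hbox : ∀ q ∈ K, j0 ≤ q.1 ∧ q.1 ≤ j1 ∧ i0 ≤ q.2 ∧ q.2 ≤ i1) (c : ℝ) :
    XL K c ⊆ Icc j0 j1 := by
  rintro x ⟨p, ⟨hp, _⟩, rfl⟩
  exact ⟨(hbox p hp).1, (hbox p hp).2.1⟩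

lemma XH_sub {K : Set (ℝ × ℝ)} {j0 j1 i0 i1 : ℝ}
    (hbox : ∀ q ∈ K, j0 ≤ q.1 ∧ q.1 ≤ j1 ∧ i0 ≤ q.2 ∧ q.2 ≤ i1) (d : ℝ) :
    XH K d ⊆ Icc j0 j1 := by
  rintro x ⟨p, ⟨hp, _⟩, rfl⟩
  exact ⟨(hbox p hp).1, (hbox p hp).2.1⟩

lemma mem_XL {K : Set (ℝ × ℝ)} {c x y : ℝ} (h : (x, y) ∈ K) (hy : y ≤ c) : x ∈ XL K c :=
  ⟨(x, y), ⟨h, hy⟩, rfl⟩

lemma mem_XH {K : Set (ℝ × ℝ)} {d x y : ℝ} (h : (x, y) ∈ K) (hy : d ≤ y) : x ∈ XH K d :=
  ⟨(x, y), ⟨h, hy⟩, rfl⟩

lemma F1 {K : Set (ℝ × ℝ)} (hKv : Convex ℝ K) {j0 yl xb i0 c u l : ℝ}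
    (hl : (j0, yl) ∈ K) (hb : (xb, i0) ∈ K) (hi0c : i0 ≤ c)
    (hlle : ∀ x ∈ XL K c, l ≤ x) (hu : u ≤ l) :
    u - j0 ≤ 0 ∨ (c < yl ∧ (u - j0) * ((yl - c) + (c - i0)) ≤ (xb - j0) * (yl - c)) := by
  by_cases hylc : yl ≤ c
  · left
    have : l ≤ j0 := hlle _ (mem_XL hl hylc)
    linarith
  · right
    have hylc' : c < yl := lt_of_not_ge hylc
    refine ⟨hylc', ?_⟩
    have hpos : 0 < yl - i0 := by linarith
    set t := (yl - c) / (yl - i0) with ht_def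
    have ht0 : 0 ≤ t := div_nonneg (by linarith) hpos.le
    have ht1 : t ≤ 1 := by rw [ht_def, div_le_one hpos]; linarith
    have hmem := seg_mem hKv hl hb ht0 ht1
    simp only at hmem
    have hte : t * (yl - i0) = yl - c := by rw [ht_def]; field_simp
    have hheight : (1 - t) * yl + t * i0 ≤ c := by
      have e : (1 - t) * yl + t * i0 = yl - t * (yl - i0) := by ring
      rw [e, hte]; linarith
    have hx : l ≤ (1 - t) * j0 + t * xb := hlle _ (mem_XL hmem hheight)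
    have h3 : u - j0 ≤ t * (xb - j0) := by
      have e : (1 - t) * j0 + t * xb - j0 = t * (xb - j0) := by ring
      linarith
    calc (u - j0) * ((yl - c) + (c - i0)) = (u - j0) * (yl - i0) := by ring
      _ ≤ t * (xb - j0) * (yl - i0) := mul_le_mul_of_nonneg_right h3 hpos.le
      _ = (xb - j0) * (t * (yl - i0)) := by ring
      _ = (xb - j0) * (yl - c) := by rw [hte]

lemma F2 {K : Set (ℝ × ℝ)} (hKv : Convex ℝ K) {j0 yl xt i1 d u l : ℝ}
    (hl : (j0, yl) ∈ K) (ht : (xt, i1) ∈ K) (hdi1 : d ≤ i1)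
    (hlle : ∀ x ∈ XH K d, l ≤ x) (hu : u ≤ l) :
    u - j0 ≤ 0 ∨ (yl < d ∧ (u - j0) * ((d - yl) + (i1 - d)) ≤ (xt - j0) * (d - yl)) := by
  by_cases hyld : d ≤ yl
  · left
    have : l ≤ j0 := hlle _ (mem_XH hl hyld)
    linarith
  · right
    have hyld' : yl < d := lt_of_not_ge hyld
    refine ⟨hyld', ?_⟩
    have hpos : 0 < i1 - yl := by linarith
    set t := (d - yl) / (i1 - yl) with ht_def
    have ht0 : 0 ≤ t := div_nonneg (by linarith) hpos.le
    have ht1 : t ≤ 1 := by rw [ht_def, div_le_one hpos]; linarith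
    have hmem := seg_mem hKv hl ht ht0 ht1
    simp only at hmem
    have hte : t * (i1 - yl) = d - yl := by rw [ht_def]; field_simp
    have hheight : d ≤ (1 - t) * yl + t * i1 := by
      have e : (1 - t) * yl + t * i1 = yl + t * (i1 - yl) := by ring
      rw [e, hte]; linarith
    have hx : l ≤ (1 - t) * j0 + t * xt := hlle _ (mem_XH hmem hheight)
    have h3 : u - j0 ≤ t * (xt - j0) := by
      have e : (1 - t) * j0 + t * xt - j0 = t * (xt - j0) := by ring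
      linarith
    calc (u - j0) * ((d - yl) + (i1 - d)) = (u - j0) * (i1 - yl) := by ring
      _ ≤ t * (xt - j0) * (i1 - yl) := mul_le_mul_of_nonneg_right h3 hpos.le
      _ = (xt - j0) * (t * (i1 - yl)) := by ring
      _ = (xt - j0) * (d - yl) := by rw [hte]

lemma F3 {K : Set (ℝ × ℝ)} (hKv : Convex ℝ K) {j0 j1 yr xb i0 c u h : ℝ}
    (hr : (j1, yr) ∈ K) (hb : (xb, i0) ∈ K) (hi0c : i0 ≤ c)
    (hhle : ∀ x ∈ XL K c, x ≤ h) (hu : h ≤ u) :
    j1 - u ≤ 0 ∨ (c < yr ∧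
      (j1 - u) * ((yr - c) + (c - i0)) ≤ ((j1 - j0) - (xb - j0)) * (yr - c)) := by
  by_cases hyrc : yr ≤ c
  · left
    have : j1 ≤ h := hhle _ (mem_XL hr hyrc)
    linarith
  · right
    have hyrc' : c < yr := lt_of_not_ge hyrc
    refine ⟨hyrc', ?_⟩
    have hpos : 0 < yr - i0 := by linarith
    set t := (yr - c) / (yr - i0) with ht_def
    have ht0 : 0 ≤ t := div_nonneg (by linarith) hpos.le
    have ht1 : t ≤ 1 := by rw [ht_def, div_le_one hpos]; linarith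
    have hmem := seg_mem hKv hr hb ht0 ht1
    simp only at hmem
    have hte : t * (yr - i0) = yr - c := by rw [ht_def]; field_simp
    have hheight : (1 - t) * yr + t * i0 ≤ c := by
      have e : (1 - t) * yr + t * i0 = yr - t * (yr - i0) := by ring
      rw [e, hte]; linarith
    have hx : (1 - t) * j1 + t * xb ≤ h := hhle _ (mem_XL hmem hheight)
    have h3 : j1 - u ≤ t * (j1 - xb) := by
      have e : j1 - ((1 - t) * j1 + t * xb) = t * (j1 - xb) := by ring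
      linarith
    calc (j1 - u) * ((yr - c) + (c - i0)) = (j1 - u) * (yr - i0) := by ring
      _ ≤ t * (j1 - xb) * (yr - i0) := mul_le_mul_of_nonneg_right h3 hpos.le
      _ = (j1 - xb) * (t * (yr - i0)) := by ring
      _ = (j1 - xb) * (yr - c) := by rw [hte]
      _ = ((j1 - j0) - (xb - j0)) * (yr - c) := by ring

lemma F4 {K : Set (ℝ × ℝ)} (hKv : Convex ℝ K) {j0 j1 yr xt i1 d u h : ℝ}
    (hr : (j1, yr) ∈ K) (ht : (xt, i1) ∈ K) (hdi1 : d ≤ i1)
    (hhle : ∀ x ∈ XH K d, x ≤ h) (hu : h ≤ u) :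
    j1 - u ≤ 0 ∨ (yr < d ∧
      (j1 - u) * ((d - yr) + (i1 - d)) ≤ ((j1 - j0) - (xt - j0)) * (d - yr)) := by
  by_cases hyrd : d ≤ yr
  · left
    have : j1 ≤ h := hhle _ (mem_XH hr hyrd)
    linarith
  · right
    have hyrd' : yr < d := lt_of_not_ge hyrd
    refine ⟨hyrd', ?_⟩
    have hpos : 0 < i1 - yr := by linarith
    set t := (d - yr) / (i1 - yr) with ht_def
    have ht0 : 0 ≤ t := div_nonneg (by linarith) hpos.le
    have ht1 : t ≤ 1 := by rw [ht_def, div_le_one hpos]; linarith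
    have hmem := seg_mem hKv hr ht ht0 ht1
    simp only at hmem
    have hte : t * (i1 - yr) = d - yr := by rw [ht_def]; field_simp
    have hheight : d ≤ (1 - t) * yr + t * i1 := by
      have e : (1 - t) * yr + t * i1 = yr + t * (i1 - yr) := by ring
      rw [e, hte]; linarith
    have hx : (1 - t) * j1 + t * xt ≤ h := hhle _ (mem_XH hmem hheight)
    have h3 : j1 - u ≤ t * (j1 - xt) := by
      have e : j1 - ((1 - t) * j1 + t * xt) = t * (j1 - xt) := by ring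
      linarith
    calc (j1 - u) * ((d - yr) + (i1 - d)) = (j1 - u) * (i1 - yr) := by ring
      _ ≤ t * (j1 - xt) * (i1 - yr) := mul_le_mul_of_nonneg_right h3 hpos.le
      _ = (j1 - xt) * (t * (i1 - yr)) := by ring
      _ = (j1 - xt) * (d - yr) := by rw [hte]
      _ = ((j1 - j0) - (xt - j0)) * (d - yr) := by ring

/-- combination of the four inequalities -/
lemma key_comb {j0 j1 i0 i1 xb xt yl yr c d u1 u2 : ℝ}
    (hq : 0 < j1 - j0) (hcd : c < d) (hi0c : i0 ≤ c) (hdi1 : d ≤ i1)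
    (hxb0 : j0 ≤ xb) (hxb1 : xb ≤ j1) (hxt0 : j0 ≤ xt) (hxt1 : xt ≤ j1)
    (hv1 : 0 ≤ u1 - j0) (hv2 : 0 ≤ j1 - u2)
    (F1 : u1 - j0 ≤ 0 ∨ (c < yl ∧ (u1 - j0) * ((yl - c) + (c - i0)) ≤ (xb - j0) * (yl - c)))
    (F2 : u1 - j0 ≤ 0 ∨ (yl < d ∧ (u1 - j0) * ((d - yl) + (i1 - d)) ≤ (xt - j0) * (d - yl)))
    (F3 : j1 - u2 ≤ 0 ∨ (c < yr ∧
        (j1 - u2) * ((yr - c) + (c - i0)) ≤ ((j1 - j0) - (xb - j0)) * (yr - c)))
    (F4 : j1 - u2 ≤ 0 ∨ (yr < d ∧
        (j1 - u2) * ((d - yr) + (i1 - d)) ≤ ((j1 - j0) - (xt - j0)) * (d - yr))) :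
    ((u1 - j0) + (j1 - u2)) * (i1 - i0) ≤ (j1 - j0) * (d - c) := by
  have hRpos : 0 ≤ (j1 - j0) * (d - c) := mul_nonneg hq.le (by linarith)
  have hca : 0 ≤ c - i0 := sub_nonneg.2 hi0c
  have hdb : 0 ≤ i1 - d := sub_nonneg.2 hdi1
  have hξ1 : xb - j0 ≤ j1 - j0 := by linarith
  have hξ2 : xt - j0 ≤ j1 - j0 := by linarith
  have hξ3 : (j1 - j0) - (xb - j0) ≤ j1 - j0 := by linarith
  have hξ4 : (j1 - j0) - (xt - j0) ≤ j1 - j0 := by linarith
  have left0 : u1 - j0 ≤ 0 → j1 - u2 ≤ 0 →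
      ((u1 - j0) + (j1 - u2)) * (i1 - i0) ≤ (j1 - j0) * (d - c) := by
    intro h h'
    have e1 : u1 - j0 = 0 := le_antisymm h hv1
    have e2 : j1 - u2 = 0 := le_antisymm h' hv2
    rw [e1, e2, add_zero, zero_mul]
    exact hRpos
  have one1 : j1 - u2 ≤ 0 → c < yl →
      (u1 - j0) * ((yl - c) + (c - i0)) ≤ (xb - j0) * (yl - c) →
      yl < d → (u1 - j0) * ((d - yl) + (i1 - d)) ≤ (xt - j0) * (d - yl) →
      ((u1 - j0) + (j1 - u2)) * (i1 - i0) ≤ (j1 - j0) * (d - c) := by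
    intro h' h1c h1 h2c h2
    have hz : j1 - u2 = 0 := le_antisymm h' hv2
    have := alg_one (q := j1 - j0) (a := c - i0) (b := i1 - d) (sub_nonneg.2 h1c.le)
      (sub_nonneg.2 h2c.le) hξ1 hξ2 h1 h2
    rw [hz, add_zero]
    calc (u1 - j0) * (i1 - i0) = (u1 - j0) * (c - i0 + (yl - c + (d - yl)) + (i1 - d)) := by ring
      _ ≤ (j1 - j0) * (yl - c + (d - yl)) := this
      _ = (j1 - j0) * (d - c) := by ring
  have one2 : u1 - j0 ≤ 0 → c < yr →
      (j1 - u2) * ((yr - c) + (c - i0)) ≤ ((j1 - j0) - (xb - j0)) * (yr - c) →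
      yr < d → (j1 - u2) * ((d - yr) + (i1 - d)) ≤ ((j1 - j0) - (xt - j0)) * (d - yr) →
      ((u1 - j0) + (j1 - u2)) * (i1 - i0) ≤ (j1 - j0) * (d - c) := by
    intro h' h1c h1 h2c h2
    have hz : u1 - j0 = 0 := le_antisymm h' hv1
    have := alg_one (q := j1 - j0) (a := c - i0) (b := i1 - d) (sub_nonneg.2 h1c.le)
      (sub_nonneg.2 h2c.le) hξ3 hξ4 h1 h2
    rw [hz, zero_add]
    calc (j1 - u2) * (i1 - i0) = (j1 - u2) * (c - i0 + (yr - c + (d - yr)) + (i1 - d)) := by ring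
      _ ≤ (j1 - j0) * (yr - c + (d - yr)) := this
      _ = (j1 - j0) * (d - c) := by ring
  rcases F1 with f1 | ⟨f1c, f1⟩
  · rcases F3 with f3 | ⟨f3c, f3⟩
    · exact left0 f1 f3
    · rcases F4 with f4 | ⟨f4c, f4⟩
      · exact left0 f1 f4
      · exact one2 f1 f3c f3 f4c f4
  · rcases F2 with f2 | ⟨f2c, f2⟩
    · rcases F3 with f3 | ⟨f3c, f3⟩
      · exact left0 f2 f3
      · rcases F4 with f4 | ⟨f4c, f4⟩
        · exact left0 f2 f4
        · exact one2 f2 f3c f3 f4c f4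
    · rcases F3 with f3 | ⟨f3c, f3⟩
      · exact one1 f3 f1c f1 f2c f2
      · rcases F4 with f4 | ⟨f4c, f4⟩
        · exact one1 f4 f1c f1 f2c f2
        · have := alg_two (q := j1 - j0) (ξ := xb - j0) (ξ' := xt - j0) hv1 hv2 hca hdb
            (sub_pos.2 f1c) (sub_pos.2 f2c) (sub_pos.2 f3c) (sub_pos.2 f4c) (by ring)
            f1 f3 f2 f4
          calc ((u1 - j0) + (j1 - u2)) * (i1 - i0)
              = ((u1 - j0) + (j1 - u2)) * (c - i0 + (yl - c + (d - yl)) + (i1 - d)) := by ring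
            _ ≤ (j1 - j0) * (yl - c + (d - yl)) := this
            _ = (j1 - j0) * (d - c) := by ring

/-- The interval inequality, compact form, overlapping case. -/
lemma ic0_overlap {K : Set (ℝ × ℝ)} (hKc : IsCompact K) (hKv : Convex ℝ K)
    {j0 j1 i0 i1 xb xt yl yr : ℝ} (hj : j0 < j1) (hi : i0 < i1)
    (hbox : ∀ q ∈ K, j0 ≤ q.1 ∧ q.1 ≤ j1 ∧ i0 ≤ q.2 ∧ q.2 ≤ i1)
    (hl : (j0, yl) ∈ K) (hr : (j1, yr) ∈ K) (hb : (xb, i0) ∈ K) (ht : (xt, i1) ∈ K)
    {c d : ℝ} (hcd : c < d) (hov : (XL K c ∩ XH K d).Nonempty) :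
    volume (Icc j0 j1 \ (XL K c ∪ XH K d)) ≤
      ENNReal.ofReal ((j1 - j0) / (i1 - i0) * (d - c)) := by
  have hq : 0 < j1 - j0 := sub_pos.2 hj
  have hp : 0 < i1 - i0 := sub_pos.2 hi
  have hXLc := XL_compact hKc c
  have hXHc := XH_compact hKc d
  have hXLo := XL_ord hKv c
  have hXHo := XH_ord hKv d
  have hXLs := XL_sub hbox c
  have hXHs := XH_sub hbox d
  have hxb := hbox _ hb
  have hxt := hbox _ ht
  simp only at hxb hxt
  obtain ⟨xs, hxsL, hxsH⟩ := hov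
  have hi0c : i0 ≤ c := by
    obtain ⟨p, ⟨hpK, hpc⟩, _⟩ := hxsL
    exact le_trans (hbox p hpK).2.2.1 hpc
  have hdi1 : d ≤ i1 := by
    obtain ⟨p, ⟨hpK, hpc⟩, _⟩ := hxsH
    exact le_trans hpc (hbox p hpK).2.2.2
  have hLne : (XL K c).Nonempty := ⟨xs, hxsL⟩
  have hHne : (XH K d).Nonempty := ⟨xs, hxsH⟩
  have hl1 : sInf (XL K c) ∈ XL K c := hXLc.sInf_mem hLne
  have hl2 : sInf (XH K d) ∈ XH K d := hXHc.sInf_mem hHne
  have hh1 : sSup (XL K c) ∈ XL K c := hXLc.sSup_mem hLne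
  have hh2 : sSup (XH K d) ∈ XH K d := hXHc.sSup_mem hHne
  have hl1le : ∀ x ∈ XL K c, sInf (XL K c) ≤ x := fun x hx => csInf_le hXLc.bddBelow hx
  have hl2le : ∀ x ∈ XH K d, sInf (XH K d) ≤ x := fun x hx => csInf_le hXHc.bddBelow hx
  have hh1le : ∀ x ∈ XL K c, x ≤ sSup (XL K c) := fun x hx => le_csSup hXLc.bddAbove hx
  have hh2le : ∀ x ∈ XH K d, x ≤ sSup (XH K d) := fun x hx => le_csSup hXHc.bddAbove hx
  generalize sInf (XL K c) = l1 at hl1 hl1le
  generalize sInf (XH K d) = l2 at hl2 hl2le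
  generalize sSup (XL K c) = h1 at hh1 hh1le
  generalize sSup (XH K d) = h2 at hh2 hh2le
  have hsub : Icc j0 j1 \ (XL K c ∪ XH K d) ⊆ Ico j0 (min l1 l2) ∪ Ioc (max h1 h2) j1 := by
    rintro x ⟨⟨hx0, hx1⟩, hxn⟩
    rcases lt_or_ge x (min l1 l2) with h | h
    · exact Or.inl ⟨hx0, h⟩
    rcases lt_or_ge (max h1 h2) x with h' | h'
    · exact Or.inr ⟨h', hx1⟩
    exfalso
    apply hxn
    rcases le_total x xs with hxs | hxs
    · rcases min_choice l1 l2 with hm | hm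
      · exact Or.inl (hXLo.out hl1 hxsL ⟨by rw [← hm]; exact h, hxs⟩)
      · exact Or.inr (hXHo.out hl2 hxsH ⟨by rw [← hm]; exact h, hxs⟩)
    · rcases max_choice h1 h2 with hm | hm
      · exact Or.inl (hXLo.out hxsL hh1 ⟨hxs, by rw [← hm]; exact h'⟩)
      · exact Or.inr (hXHo.out hxsH hh2 ⟨hxs, by rw [← hm]; exact h'⟩)
  have hu1j : j0 ≤ min l1 l2 := le_min (hXLs hl1).1 (hXHs hl2).1
  have hu2j : max h1 h2 ≤ j1 := max_le (hXLs hh1).2 (hXHs hh2).2
  have hv1 : 0 ≤ min l1 l2 - j0 := sub_nonneg.2 hu1j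
  have hv2 : 0 ≤ j1 - max h1 h2 := sub_nonneg.2 hu2j
  have f1 := F1 hKv hl hb hi0c hl1le (min_le_left l1 l2)
  have f2 := F2 hKv hl ht hdi1 hl2le (min_le_right l1 l2)
  have f3 := F3 (j0 := j0) hKv hr hb hi0c hh1le (le_max_left h1 h2)
  have f4 := F4 (j0 := j0) hKv hr ht hdi1 hh2le (le_max_right h1 h2)
  have key := key_comb hq hcd hi0c hdi1 hxb.1 hxb.2.1 hxt.1 hxt.2.1 hv1 hv2 f1 f2 f3 f4
  have key' : (min l1 l2 - j0) + (j1 - max h1 h2) ≤ (j1 - j0) / (i1 - i0) * (d - c) := by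
    rw [div_mul_eq_mul_div, le_div_iff₀ hp]
    exact key
  calc volume (Icc j0 j1 \ (XL K c ∪ XH K d))
      ≤ volume (Ico j0 (min l1 l2) ∪ Ioc (max h1 h2) j1) := measure_mono hsub
    _ ≤ volume (Ico j0 (min l1 l2)) + volume (Ioc (max h1 h2) j1) := measure_union_le _ _
    _ = ENNReal.ofReal (min l1 l2 - j0) + ENNReal.ofReal (j1 - max h1 h2) := by
        rw [Real.volume_Ico, Real.volume_Ioc]
    _ = ENNReal.ofReal ((min l1 l2 - j0) + (j1 - max h1 h2)) := (ENNReal.ofReal_add hv1 hv2).symm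
    _ ≤ _ := ENNReal.ofReal_le_ofReal key'

lemma XL_vol {K : Set (ℝ × ℝ)} (hKv : Convex ℝ K) {j0 j1 i0 i1 xb yl yr c κ : ℝ}
    (hp : 0 < i1 - i0) (hl : (j0, yl) ∈ K) (hr : (j1, yr) ∈ K) (hb : (xb, i0) ∈ K)
    (hyl : yl ≤ i1) (hyr : yr ≤ i1) (hκ0 : 0 ≤ κ) (hκ1 : κ ≤ i1 - i0) (hκc : i0 + κ ≤ c) :
    ENNReal.ofReal ((j1 - j0) / (i1 - i0) * κ) ≤ volume (XL K c) := by
  set t := κ / (i1 - i0) with ht_def
  have ht0 : 0 ≤ t := div_nonneg hκ0 hp.le
  have ht1 : t ≤ 1 := by rw [ht_def, div_le_one hp]; exact hκ1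
  have hte : t * (i1 - i0) = κ := by rw [ht_def]; field_simp
  have hA := seg_mem hKv hb hl ht0 ht1
  have hB := seg_mem hKv hb hr ht0 ht1
  simp only at hA hB
  have hAh : (1 - t) * i0 + t * yl ≤ c := by
    have e : (1 - t) * i0 + t * yl = i0 + t * (yl - i0) := by ring
    have : t * (yl - i0) ≤ t * (i1 - i0) := mul_le_mul_of_nonneg_left (by linarith) ht0
    rw [e]; linarith
  have hBh : (1 - t) * i0 + t * yr ≤ c := by
    have e : (1 - t) * i0 + t * yr = i0 + t * (yr - i0) := by ring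
    have : t * (yr - i0) ≤ t * (i1 - i0) := mul_le_mul_of_nonneg_left (by linarith) ht0
    rw [e]; linarith
  have hsub : Icc ((1 - t) * xb + t * j0) ((1 - t) * xb + t * j1) ⊆ XL K c :=
    (XL_ord hKv c).out (mem_XL hA hAh) (mem_XL hB hBh)
  calc ENNReal.ofReal ((j1 - j0) / (i1 - i0) * κ)
      = volume (Icc ((1 - t) * xb + t * j0) ((1 - t) * xb + t * j1)) := by
        rw [Real.volume_Icc]
        congr 1
        rw [ht_def]; field_simp; ring
    _ ≤ volume (XL K c) := measure_mono hsub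

lemma XH_vol {K : Set (ℝ × ℝ)} (hKv : Convex ℝ K) {j0 j1 i0 i1 xt yl yr d κ : ℝ}
    (hp : 0 < i1 - i0) (hl : (j0, yl) ∈ K) (hr : (j1, yr) ∈ K) (ht : (xt, i1) ∈ K)
    (hyl : i0 ≤ yl) (hyr : i0 ≤ yr) (hκ0 : 0 ≤ κ) (hκ1 : κ ≤ i1 - i0) (hκc : d ≤ i1 - κ) :
    ENNReal.ofReal ((j1 - j0) / (i1 - i0) * κ) ≤ volume (XH K d) := by
  set t := κ / (i1 - i0) with ht_def
  have ht0 : 0 ≤ t := div_nonneg hκ0 hp.le
  have ht1 : t ≤ 1 := by rw [ht_def, div_le_one hp]; exact hκ1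
  have hte : t * (i1 - i0) = κ := by rw [ht_def]; field_simp
  have hA := seg_mem hKv ht hl ht0 ht1
  have hB := seg_mem hKv ht hr ht0 ht1
  simp only at hA hB
  have hAh : d ≤ (1 - t) * i1 + t * yl := by
    have e : (1 - t) * i1 + t * yl = i1 - t * (i1 - yl) := by ring
    have : t * (i1 - yl) ≤ t * (i1 - i0) := mul_le_mul_of_nonneg_left (by linarith) ht0
    rw [e]; linarith
  have hBh : d ≤ (1 - t) * i1 + t * yr := by
    have e : (1 - t) * i1 + t * yr = i1 - t * (i1 - yr) := by ring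
    have : t * (i1 - yr) ≤ t * (i1 - i0) := mul_le_mul_of_nonneg_left (by linarith) ht0
    rw [e]; linarith
  have hsub : Icc ((1 - t) * xt + t * j0) ((1 - t) * xt + t * j1) ⊆ XH K d :=
    (XH_ord hKv d).out (mem_XH hA hAh) (mem_XH hB hBh)
  calc ENNReal.ofReal ((j1 - j0) / (i1 - i0) * κ)
      = volume (Icc ((1 - t) * xt + t * j0) ((1 - t) * xt + t * j1)) := by
        rw [Real.volume_Icc]
        congr 1
        rw [ht_def]; field_simp; ring
    _ ≤ volume (XH K d) := measure_mono hsub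

/-- The interval inequality, compact form, disjoint case. -/
lemma ic0_disjoint {K : Set (ℝ × ℝ)} (hKc : IsCompact K) (hKv : Convex ℝ K)
    {j0 j1 i0 i1 xb xt yl yr : ℝ} (hj : j0 < j1) (hi : i0 < i1)
    (hbox : ∀ q ∈ K, j0 ≤ q.1 ∧ q.1 ≤ j1 ∧ i0 ≤ q.2 ∧ q.2 ≤ i1)
    (hl : (j0, yl) ∈ K) (hr : (j1, yr) ∈ K) (hb : (xb, i0) ∈ K) (ht : (xt, i1) ∈ K)
    {c d : ℝ} (hcd : c < d) (hov : ¬ (XL K c ∩ XH K d).Nonempty) :
    volume (Icc j0 j1 \ (XL K c ∪ XH K d)) ≤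
      ENNReal.ofReal ((j1 - j0) / (i1 - i0) * (d - c)) := by
  have hq : 0 < j1 - j0 := sub_pos.2 hj
  have hp : 0 < i1 - i0 := sub_pos.2 hi
  have hXLc := XL_compact hKc c
  have hXHc := XH_compact hKc d
  have hXLs := XL_sub hbox c
  have hXHs := XH_sub hbox d
  have hyl := hbox _ hl
  have hyr := hbox _ hr
  simp only at hyl hyr
  have hdisj : Disjoint (XL K c) (XH K d) := by
    rw [Set.disjoint_iff_inter_eq_empty]
    exact Set.not_nonempty_iff_eq_empty.1 hov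
  set κ1 := min (max (c - i0) 0) (i1 - i0) with hκ1
  set κ2 := min (max (i1 - d) 0) (i1 - i0) with hκ2
  have hκ1n : 0 ≤ κ1 := le_min (le_max_right _ _) hp.le
  have hκ2n : 0 ≤ κ2 := le_min (le_max_right _ _) hp.le
  have hL : ENNReal.ofReal ((j1 - j0) / (i1 - i0) * κ1) ≤ volume (XL K c) := by
    by_cases hc : c ≤ i0
    · have : κ1 = 0 := by
        rw [hκ1, max_eq_right (by linarith), min_eq_left hp.le]
      rw [this, mul_zero, ENNReal.ofReal_zero]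
      exact zero_le
    · have hc' : i0 < c := lt_of_not_ge hc
      have hκle : κ1 ≤ c - i0 := le_trans (min_le_left _ _) (by rw [max_eq_left (by linarith)])
      exact XL_vol hKv hp hl hr hb hyl.2.2.2 hyr.2.2.2 hκ1n (min_le_right _ _) (by linarith)
  have hH : ENNReal.ofReal ((j1 - j0) / (i1 - i0) * κ2) ≤ volume (XH K d) := by
    by_cases hc : i1 ≤ d
    · have : κ2 = 0 := by
        rw [hκ2, max_eq_right (by linarith), min_eq_left hp.le]
      rw [this, mul_zero, ENNReal.ofReal_zero]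
      exact zero_le
    · have hc' : d < i1 := lt_of_not_ge hc
      have hκle : κ2 ≤ i1 - d := le_trans (min_le_left _ _) (by rw [max_eq_left (by linarith)])
      exact XH_vol hKv hp hl hr ht hyl.2.2.1 hyr.2.2.1 hκ2n (min_le_right _ _) (by linarith)
  have hXm : MeasurableSet (XL K c ∪ XH K d) :=
    hXLc.measurableSet.union hXHc.measurableSet
  have hXs : XL K c ∪ XH K d ⊆ Icc j0 j1 := union_subset hXLs hXHs
  have hsplit : volume (Icc j0 j1 \ (XL K c ∪ XH K d)) + volume (XL K c ∪ XH K d)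
      = ENNReal.ofReal (j1 - j0) := by
    have := measure_sdiff_add_inter (μ := volume) (Icc j0 j1) hXm
    rw [Set.inter_eq_self_of_subset_right hXs, Real.volume_Icc] at this
    exact this
  rw [measure_union hdisj hXHc.measurableSet] at hsplit
  have ha1n : 0 ≤ (j1 - j0) / (i1 - i0) * κ1 := mul_nonneg (div_nonneg hq.le hp.le) hκ1n
  have ha2n : 0 ≤ (j1 - j0) / (i1 - i0) * κ2 := mul_nonneg (div_nonneg hq.le hp.le) hκ2n
  have hle : volume (Icc j0 j1 \ (XL K c ∪ XH K d)) +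
      ENNReal.ofReal ((j1 - j0) / (i1 - i0) * κ1 + (j1 - j0) / (i1 - i0) * κ2)
      ≤ ENNReal.ofReal (j1 - j0) := by
    rw [← hsplit, ENNReal.ofReal_add ha1n ha2n]
    gcongr
  have h1 : volume (Icc j0 j1 \ (XL K c ∪ XH K d))
      ≤ ENNReal.ofReal (j1 - j0) -
        ENNReal.ofReal ((j1 - j0) / (i1 - i0) * κ1 + (j1 - j0) / (i1 - i0) * κ2) :=
    ENNReal.le_sub_of_add_le_right ENNReal.ofReal_ne_top hle
  rw [← ENNReal.ofReal_sub _ (add_nonneg ha1n ha2n)] at h1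
  refine le_trans h1 (ENNReal.ofReal_le_ofReal ?_)
  have hκ : (i1 - i0) - κ1 - κ2 ≤ d - c := by
    rcases le_or_gt (i1 - i0) (c - i0) with h | h
    · have : κ1 = i1 - i0 := by rw [hκ1, min_eq_right (le_trans h (le_max_left _ _))]
      linarith
    rcases le_or_gt (i1 - i0) (i1 - d) with h' | h'
    · have : κ2 = i1 - i0 := by rw [hκ2, min_eq_right (le_trans h' (le_max_left _ _))]
      linarith
    have e1 : c - i0 ≤ κ1 := by
      rw [hκ1]; exact le_min (le_max_left _ _) h.le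
    have e2 : i1 - d ≤ κ2 := by
      rw [hκ2]; exact le_min (le_max_left _ _) h'.le
    linarith
  have hr' : 0 ≤ (j1 - j0) / (i1 - i0) := div_nonneg hq.le hp.le
  calc j1 - j0 - ((j1 - j0) / (i1 - i0) * κ1 + (j1 - j0) / (i1 - i0) * κ2)
      = (j1 - j0) / (i1 - i0) * ((i1 - i0) - κ1 - κ2) := by
        field_simp; ring
    _ ≤ (j1 - j0) / (i1 - i0) * (d - c) := mul_le_mul_of_nonneg_left hκ hr'

/-- The interval inequality, compact form. -/
lemma ic0 {K : Set (ℝ × ℝ)} (hKc : IsCompact K) (hKv : Convex ℝ K)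
    {j0 j1 i0 i1 xb xt yl yr : ℝ} (hj : j0 < j1) (hi : i0 < i1)
    (hbox : ∀ q ∈ K, j0 ≤ q.1 ∧ q.1 ≤ j1 ∧ i0 ≤ q.2 ∧ q.2 ≤ i1)
    (hl : (j0, yl) ∈ K) (hr : (j1, yr) ∈ K) (hb : (xb, i0) ∈ K) (ht : (xt, i1) ∈ K)
    {c d : ℝ} (hcd : c < d) :
    volume (Icc j0 j1 \ (XL K c ∪ XH K d)) ≤
      ENNReal.ofReal ((j1 - j0) / (i1 - i0) * (d - c)) := by
  by_cases hov : (XL K c ∩ XH K d).Nonempty
  · exact ic0_overlap hKc hKv hj hi hbox hl hr hb ht hcd hov
  · exact ic0_disjoint hKc hKv hj hi hbox hl hr hb ht hcd hov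


/-- abscissae in `[j0,j1]` whose fibre in `K` lies in `[c,d]` and avoids `W` -/
def Sfib (K : Set (ℝ × ℝ)) (j0 j1 c d : ℝ) (W : Set ℝ) : Set ℝ :=
  {x | x ∈ Icc j0 j1 ∧ ∀ y, (x, y) ∈ K → c ≤ y ∧ y ≤ d ∧ y ∉ W}

lemma exists_fib {K : Set (ℝ × ℝ)} (hKv : Convex ℝ K) {j0 j1 yl yr : ℝ} (hj : j0 < j1)
    (hl : (j0, yl) ∈ K) (hr : (j1, yr) ∈ K) {x : ℝ} (hx : x ∈ Icc j0 j1) :
    ∃ y, (x, y) ∈ K := by
  have hq : 0 < j1 - j0 := sub_pos.2 hj
  set t := (x - j0) / (j1 - j0) with ht_def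
  have ht0 : 0 ≤ t := div_nonneg (sub_nonneg.2 hx.1) hq.le
  have ht1 : t ≤ 1 := by rw [ht_def, div_le_one hq]; linarith [hx.2]
  have hmem := seg_mem hKv hl hr ht0 ht1
  simp only at hmem
  have e : (1 - t) * j0 + t * j1 = x := by
    have : t * (j1 - j0) = x - j0 := by rw [ht_def]; field_simp
    linarith
  rw [e] at hmem
  exact ⟨_, hmem⟩

/-- The interval inequality, closed window. -/
lemma ic_closed {K : Set (ℝ × ℝ)} (hKc : IsCompact K) (hKv : Convex ℝ K)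
    {j0 j1 i0 i1 xb xt yl yr : ℝ} (hj : j0 < j1) (hi : i0 < i1)
    (hbox : ∀ q ∈ K, j0 ≤ q.1 ∧ q.1 ≤ j1 ∧ i0 ≤ q.2 ∧ q.2 ≤ i1)
    (hl : (j0, yl) ∈ K) (hr : (j1, yr) ∈ K) (hb : (xb, i0) ∈ K) (ht : (xt, i1) ∈ K)
    {c d : ℝ} (hcd : c ≤ d) :
    volume (Sfib K j0 j1 c d ∅) ≤ ENNReal.ofReal ((j1 - j0) / (i1 - i0) * (d - c)) := by
  have hq : 0 < j1 - j0 := sub_pos.2 hj
  have hp : 0 < i1 - i0 := sub_pos.2 hi
  have hr0 : 0 < (j1 - j0) / (i1 - i0) := div_pos hq hp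
  have key : ∀ η : ℝ, 0 < η → volume (Sfib K j0 j1 c d ∅) ≤
      ENNReal.ofReal ((j1 - j0) / (i1 - i0) * (d - c) + (j1 - j0) / (i1 - i0) * (2 * η)) := by
    intro η hη
    have hsub : Sfib K j0 j1 c d ∅ ⊆ Icc j0 j1 \ (XL K (c - η) ∪ XH K (d + η)) := by
      rintro x ⟨hxI, hx⟩
      refine ⟨hxI, ?_⟩
      rintro (⟨p, ⟨hpK, hpc⟩, rfl⟩ | ⟨p, ⟨hpK, hpc⟩, rfl⟩)
      · have := (hx p.2 hpK).1
        have hpc' : p.2 ≤ c - η := hpc
        linarith
      · have := (hx p.2 hpK).2.1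
        have hpc' : d + η ≤ p.2 := hpc
        linarith
    have h := ic0 hKc hKv hj hi hbox hl hr hb ht (c := c - η) (d := d + η) (by linarith)
    have e : (j1 - j0) / (i1 - i0) * (d + η - (c - η))
        = (j1 - j0) / (i1 - i0) * (d - c) + (j1 - j0) / (i1 - i0) * (2 * η) := by ring
    rw [e] at h
    exact (measure_mono hsub).trans h
  have hA : 0 ≤ (j1 - j0) / (i1 - i0) * (d - c) := mul_nonneg hr0.le (sub_nonneg.2 hcd)
  refine ENNReal.le_of_forall_pos_le_add ?_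
  intro ε hε _
  have hε' : (0 : ℝ) < ε := by exact_mod_cast hε
  set η := (ε : ℝ) / (2 * ((j1 - j0) / (i1 - i0))) with hη_def
  have hη : 0 < η := div_pos hε' (by positivity)
  have h := key η hη
  have e : (j1 - j0) / (i1 - i0) * (2 * η) = (ε : ℝ) := by
    rw [hη_def]; field_simp
  rw [e, ENNReal.ofReal_add hA hε'.le, ENNReal.ofReal_coe_nnreal] at h
  exact h

/-- The Hall inequality for finitely many removed open intervals. -/
lemma hall_fin {K : Set (ℝ × ℝ)} (hKc : IsCompact K) (hKv : Convex ℝ K)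
    {j0 j1 i0 i1 xb xt yl yr : ℝ} (hj : j0 < j1) (hi : i0 < i1)
    (hbox : ∀ q ∈ K, j0 ≤ q.1 ∧ q.1 ≤ j1 ∧ i0 ≤ q.2 ∧ q.2 ≤ i1)
    (hl : (j0, yl) ∈ K) (hr : (j1, yr) ∈ K) (hb : (xb, i0) ∈ K) (ht : (xt, i1) ∈ K)
    {δ : ℝ} (hδ : 0 < δ) (t : Finset ℝ) :
    ∀ c d : ℝ, volume (Sfib K j0 j1 c d (⋃ v ∈ t, Ioo (v - δ) (v + δ))) ≤
      ENNReal.ofReal ((j1 - j0) / (i1 - i0)) *
        volume (Icc c d \ ⋃ v ∈ t, Ioo (v - δ) (v + δ)) := by
  have hq : 0 < j1 - j0 := sub_pos.2 hj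
  have hp : 0 < i1 - i0 := sub_pos.2 hi
  have hr0 : 0 ≤ (j1 - j0) / (i1 - i0) := (div_pos hq hp).le
  induction t using Finset.induction_on with
  | empty =>
    intro c d
    have e : (⋃ v ∈ (∅ : Finset ℝ), Ioo (v - δ) (v + δ)) = ∅ := by simp
    rw [e, Set.sdiff_empty]
    rcases le_or_gt c d with hcd | hcd
    · have h := ic_closed hKc hKv hj hi hbox hl hr hb ht hcd
      rw [ENNReal.ofReal_mul hr0] at h
      rw [Real.volume_Icc]
      exact h
    · have hempty : Sfib K j0 j1 c d ∅ = ∅ := by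
        ext x
        simp only [mem_empty_iff_false, iff_false]
        rintro ⟨hxI, hx⟩
        obtain ⟨y, hy⟩ := exists_fib hKv hj hl hr hxI
        have := hx y hy
        linarith [this.1, this.2.1]
      rw [hempty, measure_empty]
      exact zero_le
  | insert v t hv ih =>
    intro c d
    rw [Finset.set_biUnion_insert]
    set W := ⋃ w ∈ t, Ioo (w - δ) (w + δ) with hW
    have hWm : MeasurableSet W :=
      Finset.measurableSet_biUnion t (fun w _ => measurableSet_Ioo)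
    have hsub : Sfib K j0 j1 c d (Ioo (v - δ) (v + δ) ∪ W) ⊆
        Sfib K j0 j1 c (min d (v - δ)) W ∪ Sfib K j0 j1 (max c (v + δ)) d W := by
      rintro x ⟨hxI, hx⟩
      by_cases hlow : ∀ y, (x, y) ∈ K → y ≤ v - δ
      · left
        exact ⟨hxI, fun y hy => ⟨(hx y hy).1, le_min (hx y hy).2.1 (hlow y hy),
          fun hw => (hx y hy).2.2 (Or.inr hw)⟩⟩
      · right
        push Not at hlow
        obtain ⟨y1, hy1K, hy1⟩ := hlow
        have hy1' : v + δ ≤ y1 := by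
          by_contra hcon
          exact (hx y1 hy1K).2.2 (Or.inl ⟨hy1, lt_of_not_ge hcon⟩)
        have hhigh : ∀ y, (x, y) ∈ K → v + δ ≤ y := by
          intro y2 hy2K
          by_contra hcon
          have hy2lt : y2 < v + δ := lt_of_not_ge hcon
          have hy2' : y2 ≤ v - δ := by
            by_contra hcon2
            exact (hx y2 hy2K).2.2 (Or.inl ⟨lt_of_not_ge hcon2, hy2lt⟩)
          have hpos : 0 < y1 - y2 := by linarith
          set s := (v - y2) / (y1 - y2) with hs_def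
          have hs0 : 0 ≤ s := div_nonneg (by linarith) hpos.le
          have hs1 : s ≤ 1 := by rw [hs_def, div_le_one hpos]; linarith
          have hmem := seg_mem hKv hy2K hy1K hs0 hs1
          simp only at hmem
          have e1 : (1 - s) * x + s * x = x := by ring
          have e2 : (1 - s) * y2 + s * y1 = v := by
            have : s * (y1 - y2) = v - y2 := by rw [hs_def]; field_simp
            linarith
          rw [e1, e2] at hmem
          exact (hx v hmem).2.2 (Or.inl ⟨by linarith, by linarith⟩)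
        exact ⟨hxI, fun y hy => ⟨max_le (hx y hy).1 (hhigh y hy),
          (hx y hy).2.1, fun hw => (hx y hy).2.2 (Or.inr hw)⟩⟩
    have hA := ih c (min d (v - δ))
    have hB := ih (max c (v + δ)) d
    have hdisj : Disjoint (Icc c (min d (v - δ)) \ W) (Icc (max c (v + δ)) d \ W) := by
      rw [Set.disjoint_left]
      rintro y ⟨⟨_, hy1⟩, _⟩ ⟨⟨hy2, _⟩, _⟩
      have h1 : y ≤ v - δ := le_trans hy1 (min_le_right _ _)
      have h2 : v + δ ≤ y := le_trans (le_max_right _ _) hy2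
      linarith
    have hun : (Icc c (min d (v - δ)) \ W) ∪ (Icc (max c (v + δ)) d \ W) ⊆
        Icc c d \ (Ioo (v - δ) (v + δ) ∪ W) := by
      rintro y (⟨⟨hy0, hy1⟩, hyW⟩ | ⟨⟨hy0, hy1⟩, hyW⟩)
      · refine ⟨⟨hy0, le_trans hy1 (min_le_left _ _)⟩, ?_⟩
        rintro (⟨h1, _⟩ | h)
        · have : y ≤ v - δ := le_trans hy1 (min_le_right _ _)
          linarith
        · exact hyW h
      · refine ⟨⟨le_trans (le_max_left _ _) hy0, hy1⟩, ?_⟩
        rintro (⟨_, h2⟩ | h)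
        · have : v + δ ≤ y := le_trans (le_max_right _ _) hy0
          linarith
        · exact hyW h
    calc volume (Sfib K j0 j1 c d (Ioo (v - δ) (v + δ) ∪ W))
        ≤ volume (Sfib K j0 j1 c (min d (v - δ)) W ∪ Sfib K j0 j1 (max c (v + δ)) d W) :=
          measure_mono hsub
      _ ≤ volume (Sfib K j0 j1 c (min d (v - δ)) W) +
            volume (Sfib K j0 j1 (max c (v + δ)) d W) := measure_union_le _ _
      _ ≤ ENNReal.ofReal ((j1 - j0) / (i1 - i0)) * volume (Icc c (min d (v - δ)) \ W) +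
            ENNReal.ofReal ((j1 - j0) / (i1 - i0)) * volume (Icc (max c (v + δ)) d \ W) :=
          add_le_add hA hB
      _ = ENNReal.ofReal ((j1 - j0) / (i1 - i0)) *
            volume ((Icc c (min d (v - δ)) \ W) ∪ (Icc (max c (v + δ)) d \ W)) := by
          rw [measure_union hdisj (measurableSet_Icc.diff hWm), mul_add]
      _ ≤ ENNReal.ofReal ((j1 - j0) / (i1 - i0)) *
            volume (Icc c d \ (Ioo (v - δ) (v + δ) ∪ W)) := by
          gcongr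

/-- **Hall-type inequality** for a compact convex planar set. -/
theorem hall_core {K : Set (ℝ × ℝ)} (hKc : IsCompact K) (hKv : Convex ℝ K)
    {j0 j1 i0 i1 : ℝ} (hJ : Prod.fst '' K = Icc j0 j1) (hI : Prod.snd '' K = Icc i0 i1)
    (hj : j0 < j1) (hi : i0 < i1)
    {U V : Set ℝ} (hU : MeasurableSet U)
    (hdisj : ∀ q ∈ K, q.1 ∈ U → q.2 ∈ V → False) :
    volume (U ∩ Icc j0 j1) ≤
      ENNReal.ofReal ((j1 - j0) / (i1 - i0)) * volume (Icc i0 i1 \ V) := by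
  have hq : 0 < j1 - j0 := sub_pos.2 hj
  have hp : 0 < i1 - i0 := sub_pos.2 hi
  have hr0 : 0 < (j1 - j0) / (i1 - i0) := div_pos hq hp
  have hbox : ∀ q ∈ K, j0 ≤ q.1 ∧ q.1 ≤ j1 ∧ i0 ≤ q.2 ∧ q.2 ≤ i1 := by
    intro q hq
    have h1 : q.1 ∈ Icc j0 j1 := hJ ▸ mem_image_of_mem _ hq
    have h2 : q.2 ∈ Icc i0 i1 := hI ▸ mem_image_of_mem _ hq
    exact ⟨h1.1, h1.2, h2.1, h2.2⟩
  obtain ⟨pl, hplK, hpl⟩ : j0 ∈ Prod.fst '' K := by rw [hJ]; exact left_mem_Icc.2 hj.le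
  obtain ⟨pr, hprK, hpr⟩ : j1 ∈ Prod.fst '' K := by rw [hJ]; exact right_mem_Icc.2 hj.le
  obtain ⟨pb, hpbK, hpb⟩ : i0 ∈ Prod.snd '' K := by rw [hI]; exact left_mem_Icc.2 hi.le
  obtain ⟨pt, hptK, hpt⟩ : i1 ∈ Prod.snd '' K := by rw [hI]; exact right_mem_Icc.2 hi.le
  have hl : (j0, pl.2) ∈ K := by rw [← hpl]; exact hplK
  have hr : (j1, pr.2) ∈ K := by rw [← hpr]; exact hprK
  have hb : (pb.1, i0) ∈ K := by rw [← hpb]; exact hpbK
  have ht : (pt.1, i1) ∈ K := by rw [← hpt]; exact hptK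
  have main : ∀ ε : ℝ, 0 < ε → volume (U ∩ Icc j0 j1) ≤
      ENNReal.ofReal ((j1 - j0) / (i1 - i0)) * (volume (Icc i0 i1 \ V) + ENNReal.ofReal ε)
        + ENNReal.ofReal ε := by
    intro ε hε
    have hεne : ENNReal.ofReal ε ≠ 0 := (ENNReal.ofReal_pos.2 hε).ne'
    have hUfin : volume (U ∩ Icc j0 j1) ≠ ⊤ := by
      refine ((measure_mono inter_subset_right).trans_lt ?_).ne
      rw [Real.volume_Icc]; exact ENNReal.ofReal_lt_top
    obtain ⟨Uc, hUcsub, hUcc, hUcm⟩ :=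
      (hU.inter measurableSet_Icc).exists_isCompact_lt_add hUfin hεne
    have hWfin : volume (Icc i0 i1 \ V) ≠ ⊤ := by
      refine ((measure_mono Set.sdiff_subset).trans_lt ?_).ne
      rw [Real.volume_Icc]; exact ENNReal.ofReal_lt_top
    obtain ⟨O, hOsub, hOo, hOm⟩ := (Icc i0 i1 \ V).exists_isOpen_lt_add hWfin hεne
    set Vc := Icc i0 i1 \ O with hVc
    have hVcc : IsCompact Vc := isCompact_Icc.diff hOo
    have hVcV : Vc ⊆ V := by
      intro y hy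
      by_contra hyV
      exact hy.2 (hOsub ⟨hy.1, hyV⟩)
    set N := Prod.snd '' (K ∩ Prod.fst ⁻¹' Uc) with hN
    have hNc : IsCompact N :=
      (hKc.inter_right (hUcc.isClosed.preimage continuous_fst)).image continuous_snd
    have hdisjN : Disjoint Vc N := by
      rw [Set.disjoint_left]
      rintro y hyV ⟨p, ⟨hpK, hpU⟩, rfl⟩
      exact hdisj p hpK (hUcsub hpU).1 (hVcV hyV)
    obtain ⟨δ, hδ, hth⟩ := hdisjN.exists_thickenings hVcc hNc.isClosed
    obtain ⟨tset, htsub, htfin, htcov⟩ := hVcc.finite_cover_balls hδ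
    have hcov : Vc ⊆ ⋃ v ∈ htfin.toFinset, Ioo (v - δ) (v + δ) := by
      intro y hy
      have h := htcov hy
      simp only [mem_iUnion] at h ⊢
      obtain ⟨v, hv, hyv⟩ := h
      rw [Real.ball_eq_Ioo] at hyv
      exact ⟨v, htfin.mem_toFinset.2 hv, hyv⟩
    have hWN : ∀ y ∈ N, y ∉ ⋃ v ∈ htfin.toFinset, Ioo (v - δ) (v + δ) := by
      intro y hyN hy
      simp only [mem_iUnion] at hy
      obtain ⟨v, hv, hyv⟩ := hy
      have hvV : v ∈ Vc := htsub (htfin.mem_toFinset.1 hv)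
      have h1 : y ∈ Metric.thickening δ Vc :=
        Metric.ball_subset_thickening hvV δ (by rw [Real.ball_eq_Ioo]; exact hyv)
      have h2 : y ∈ Metric.thickening δ N := Metric.self_subset_thickening hδ N hyN
      exact Set.disjoint_left.1 hth h1 h2
    have hUcS : Uc ⊆ Sfib K j0 j1 i0 i1 (⋃ v ∈ htfin.toFinset, Ioo (v - δ) (v + δ)) := by
      intro x hx
      exact ⟨(hUcsub hx).2, fun y hy => ⟨(hbox _ hy).2.2.1, (hbox _ hy).2.2.2,
        hWN y ⟨(x, y), ⟨hy, hx⟩, rfl⟩⟩⟩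
    have hfin := hall_fin hKc hKv hj hi hbox hl hr hb ht hδ htfin.toFinset i0 i1
    have hIW : Icc i0 i1 \ (⋃ v ∈ htfin.toFinset, Ioo (v - δ) (v + δ)) ⊆ O := by
      rintro y ⟨hyI, hyW⟩
      by_contra hyO
      exact hyW (hcov ⟨hyI, hyO⟩)
    calc volume (U ∩ Icc j0 j1) ≤ volume Uc + ENNReal.ofReal ε := hUcm.le
      _ ≤ ENNReal.ofReal ((j1 - j0) / (i1 - i0)) *
            volume (Icc i0 i1 \ (⋃ v ∈ htfin.toFinset, Ioo (v - δ) (v + δ)))
            + ENNReal.ofReal ε := by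
          gcongr
          exact (measure_mono hUcS).trans hfin
      _ ≤ ENNReal.ofReal ((j1 - j0) / (i1 - i0)) * (volume (Icc i0 i1 \ V) + ENNReal.ofReal ε)
            + ENNReal.ofReal ε := by
          gcongr
          exact (measure_mono hIW).trans hOm.le
  refine ENNReal.le_of_forall_pos_le_add ?_
  intro ε hε _
  have hε' : (0 : ℝ) < ε := by exact_mod_cast hε
  set η := (ε : ℝ) / ((j1 - j0) / (i1 - i0) + 1) with hη_def
  have hη : 0 < η := div_pos hε' (by positivity)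
  have h := main η hη
  have e : (j1 - j0) / (i1 - i0) * η + η = (ε : ℝ) := by
    rw [hη_def]; field_simp
  calc volume (U ∩ Icc j0 j1)
      ≤ ENNReal.ofReal ((j1 - j0) / (i1 - i0)) * (volume (Icc i0 i1 \ V) + ENNReal.ofReal η)
        + ENNReal.ofReal η := h
    _ = ENNReal.ofReal ((j1 - j0) / (i1 - i0)) * volume (Icc i0 i1 \ V) +
          ENNReal.ofReal ((j1 - j0) / (i1 - i0) * η + η) := by
        rw [mul_add, add_assoc, ENNReal.ofReal_add (mul_nonneg hr0.le hη.le) hη.le,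
          ENNReal.ofReal_mul hr0.le]
    _ = ENNReal.ofReal ((j1 - j0) / (i1 - i0)) * volume (Icc i0 i1 \ V) + ε := by
        rw [e, ENNReal.ofReal_coe_nnreal]

end Vale.Agent.P243lib
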