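import Vale.Agent.P243lib.Planar

/-!
# Slicing argument for two cylinders with coordinate axes
-/

namespace Vale.Agent.P243lib

open MeasureTheory Set
open scoped ENNReal

lemma refl_lintegral (a b : ℝ) (φ : ℝ → ℝ≥0∞) :
    ∫⁻ z in Icc a b, φ (a + b - z) = ∫⁻ z in Icc a b, φ z := by
  have hg : MeasurePreserving (fun z : ℝ => (a + b) - z) volume volume :=
    Measure.measurePreserving_sub_left volume (a + b)
  have hemb : MeasurableEmbedding (fun z : ℝ => (a + b) - z) :=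
    (MeasurableEquiv.subLeft (a + b)).measurableEmbedding
  have hpre : (fun z : ℝ => (a + b) - z) ⁻¹' Icc a b = Icc a b := by
    ext z
    simp only [mem_preimage, mem_Icc]
    constructor <;> rintro ⟨h1, h2⟩ <;> constructor <;> linarith
  have h := hg.setLIntegral_comp_preimage_emb hemb φ (Icc a b)
  rw [hpre] at h
  exact h

lemma half_le_of_add_le {x y : ℝ≥0∞} (h : x + x ≤ y + y) : x ≤ y := by
  by_contra hcon
  push Not at hcon
  exact absurd h (not_le.2 (ENNReal.add_lt_add hcon hcon))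

/-- Hermite–Hadamard (upper part) for a nonnegative concave function. -/
lemma concave_upper {f : ℝ → ℝ} {a b : ℝ} (hab : a ≤ b) (hf : ConcaveOn ℝ (Icc a b) f)
    (hf0 : ∀ z, 0 ≤ f z) :
    ∫⁻ z in Icc a b, ENNReal.ofReal (f z) ≤ ENNReal.ofReal ((b - a) * f ((a + b) / 2)) := by
  apply half_le_of_add_le
  have h1 : (∫⁻ z in Icc a b, ENNReal.ofReal (f z)) + ∫⁻ z in Icc a b, ENNReal.ofReal (f z) ≤
      ∫⁻ z in Icc a b, (ENNReal.ofReal (f z) + ENNReal.ofReal (f (a + b - z))) := by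
    calc (∫⁻ z in Icc a b, ENNReal.ofReal (f z)) + ∫⁻ z in Icc a b, ENNReal.ofReal (f z)
        = (∫⁻ z in Icc a b, ENNReal.ofReal (f z)) +
            ∫⁻ z in Icc a b, ENNReal.ofReal (f (a + b - z)) := by
          rw [refl_lintegral a b (fun z => ENNReal.ofReal (f z))]
      _ ≤ _ := le_lintegral_add _ _
  have h2 : ∫⁻ z in Icc a b, (ENNReal.ofReal (f z) + ENNReal.ofReal (f (a + b - z))) ≤
      ∫⁻ _ in Icc a b, ENNReal.ofReal (2 * f ((a + b) / 2)) := by
    refine setLIntegral_mono' measurableSet_Icc ?_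
    intro z hz
    rw [← ENNReal.ofReal_add (hf0 _) (hf0 _)]
    apply ENNReal.ofReal_le_ofReal
    have hz' : a + b - z ∈ Icc a b := ⟨by linarith [hz.2], by linarith [hz.1]⟩
    have h := hf.2 hz hz' (by norm_num : (0 : ℝ) ≤ 1 / 2) (by norm_num : (0 : ℝ) ≤ 1 / 2)
      (by norm_num)
    simp only [smul_eq_mul] at h
    have e : (1 / 2 : ℝ) * z + 1 / 2 * (a + b - z) = (a + b) / 2 := by ring
    rw [e] at h
    linarith
  have hm : 0 ≤ (b - a) * f ((a + b) / 2) := mul_nonneg (sub_nonneg.2 hab) (hf0 _)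
  calc (∫⁻ z in Icc a b, ENNReal.ofReal (f z)) + ∫⁻ z in Icc a b, ENNReal.ofReal (f z)
      ≤ ∫⁻ _ in Icc a b, ENNReal.ofReal (2 * f ((a + b) / 2)) := h1.trans h2
    _ = ENNReal.ofReal (2 * f ((a + b) / 2)) * ENNReal.ofReal (b - a) := by
        rw [setLIntegral_const, Real.volume_Icc]
    _ = ENNReal.ofReal ((b - a) * f ((a + b) / 2)) + ENNReal.ofReal ((b - a) * f ((a + b) / 2)) := by
        rw [← ENNReal.ofReal_mul (mul_nonneg zero_le_two (hf0 _)), ← ENNReal.ofReal_add hm hm]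
        congr 1
        ring

/-- Trapezoid lower bound for a nonnegative concave function. -/
lemma concave_lower {f : ℝ → ℝ} {a b : ℝ} (hab : a ≤ b) (hf : ConcaveOn ℝ (Icc a b) f)
    (hf0 : ∀ z, 0 ≤ f z) (hfm : Measurable f) :
    ENNReal.ofReal ((b - a) * ((f a + f b) / 2)) ≤ ∫⁻ z in Icc a b, ENNReal.ofReal (f z) := by
  rcases hab.eq_or_lt with rfl | hlt
  · simp
  apply half_le_of_add_le
  have hmeas : Measurable (fun z => ENNReal.ofReal (f z)) := ENNReal.measurable_ofReal.comp hfm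
  have h1 : (∫⁻ z in Icc a b, ENNReal.ofReal (f z)) + ∫⁻ z in Icc a b, ENNReal.ofReal (f z) =
      ∫⁻ z in Icc a b, (ENNReal.ofReal (f z) + ENNReal.ofReal (f (a + b - z))) := by
    rw [lintegral_add_left hmeas, refl_lintegral a b (fun z => ENNReal.ofReal (f z))]
  have h2 : ∫⁻ _ in Icc a b, ENNReal.ofReal (f a + f b) ≤
      ∫⁻ z in Icc a b, (ENNReal.ofReal (f z) + ENNReal.ofReal (f (a + b - z))) := by
    refine setLIntegral_mono' measurableSet_Icc ?_
    intro z hz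
    rw [← ENNReal.ofReal_add (hf0 _) (hf0 _)]
    apply ENNReal.ofReal_le_ofReal
    have hba : 0 < b - a := sub_pos.2 hlt
    set t := (z - a) / (b - a) with ht_def
    have ht0 : 0 ≤ t := div_nonneg (sub_nonneg.2 hz.1) hba.le
    have ht1 : t ≤ 1 := by rw [ht_def, div_le_one hba]; linarith [hz.2]
    have hte : t * (b - a) = z - a := by rw [ht_def]; field_simp
    have ha : a ∈ Icc a b := left_mem_Icc.2 hab
    have hb : b ∈ Icc a b := right_mem_Icc.2 hab
    have h3 := hf.2 ha hb (sub_nonneg.2 ht1) ht0 (by ring)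
    have h4 := hf.2 ha hb ht0 (sub_nonneg.2 ht1) (by ring)
    simp only [smul_eq_mul] at h3 h4
    have e3 : (1 - t) * a + t * b = z := by linarith
    have e4 : t * a + (1 - t) * b = a + b - z := by linarith
    rw [e3] at h3
    rw [e4] at h4
    linarith
  have hm : 0 ≤ (b - a) * ((f a + f b) / 2) :=
    mul_nonneg (sub_nonneg.2 hab) (div_nonneg (add_nonneg (hf0 _) (hf0 _)) zero_le_two)
  calc ENNReal.ofReal ((b - a) * ((f a + f b) / 2)) + ENNReal.ofReal ((b - a) * ((f a + f b) / 2))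
      = ENNReal.ofReal (f a + f b) * ENNReal.ofReal (b - a) := by
        rw [← ENNReal.ofReal_mul (add_nonneg (hf0 _) (hf0 _)), ← ENNReal.ofReal_add hm hm]
        congr 1
        ring
    _ = ∫⁻ _ in Icc a b, ENNReal.ofReal (f a + f b) := by
        rw [setLIntegral_const, Real.volume_Icc]
    _ ≤ _ := h2.trans h1.symm.le

/-- Two concave densities on a common interval overlap in mass at least one half. -/
lemma tv_bound {f g : ℝ → ℝ} {z0 z1 : ℝ} (h01 : z0 ≤ z1)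
    (hf : ConcaveOn ℝ (Icc z0 z1) f) (hg : ConcaveOn ℝ (Icc z0 z1) g)
    (hf0 : ∀ z, 0 ≤ f z) (hg0 : ∀ z, 0 ≤ g z)
    (hfz : ∀ z, z ∉ Icc z0 z1 → f z = 0) (hgz : ∀ z, z ∉ Icc z0 z1 → g z = 0)
    (hfm : Measurable f) (hgm : Measurable g)
    {F G : ℝ} (hF : 0 < F) (hG : 0 < G)
    (hFi : ∫⁻ z, ENNReal.ofReal (f z) = ENNReal.ofReal F)
    (hGi : ∫⁻ z, ENNReal.ofReal (g z) = ENNReal.ofReal G) :
    (2⁻¹ : ℝ≥0∞) ≤ ∫⁻ z, ENNReal.ofReal (min (f z / F) (g z / G)) := by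
  set mid := (z0 + z1) / 2 with hmid
  have hL0 : 0 ≤ z1 - z0 := sub_nonneg.2 h01
  -- Hermite–Hadamard for f and g
  have HH : ∀ {φ : ℝ → ℝ} {Φ : ℝ}, ConcaveOn ℝ (Icc z0 z1) φ → (∀ z, 0 ≤ φ z) →
      (∀ z, z ∉ Icc z0 z1 → φ z = 0) → 0 < Φ →
      ∫⁻ z, ENNReal.ofReal (φ z) = ENNReal.ofReal Φ → Φ ≤ (z1 - z0) * φ mid := by
    intro φ Φ hφ hφ0 hφz hΦ hΦi
    have hsupp : (fun z => ENNReal.ofReal (φ z)).support ⊆ Icc z0 z1 := by
      intro z hz
      by_contra hzn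
      apply hz
      simp [hφz z hzn]
    have h1 := setLIntegral_eq_of_support_subset (μ := volume) hsupp
    have h2 := concave_upper h01 hφ hφ0
    rw [h1, hΦi] at h2
    rcases ENNReal.ofReal_le_ofReal_iff'.1 h2 with h | h
    · exact h
    · exact absurd hΦ (not_lt.2 h)
  have hFmid := HH hf hf0 hfz hF hFi
  have hGmid := HH hg hg0 hgz hG hGi
  have hLpos : 0 < z1 - z0 := by
    by_contra hcon
    have : z1 - z0 = 0 := le_antisymm (not_lt.1 hcon) hL0
    rw [this, zero_mul] at hFmid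
    exact absurd hF (not_lt.2 hFmid)
  have hz0mid : z0 ≤ mid := by rw [hmid]; linarith
  have hmidz1 : mid ≤ z1 := by rw [hmid]; linarith
  set m : ℝ → ℝ := fun z => min (f z / F) (g z / G) with hm
  have hm0 : ∀ z, 0 ≤ m z := fun z => le_min (div_nonneg (hf0 z) hF.le) (div_nonneg (hg0 z) hG.le)
  have hmm : Measurable m := (hfm.div_const F).min (hgm.div_const G)
  have hmc : ConcaveOn ℝ (Icc z0 z1) m := by
    have h1 : ConcaveOn ℝ (Icc z0 z1) (fun z => F⁻¹ • f z) := hf.smul (inv_nonneg.2 hF.le)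
    have h2 : ConcaveOn ℝ (Icc z0 z1) (fun z => G⁻¹ • g z) := hg.smul (inv_nonneg.2 hG.le)
    have h3 := h1.inf h2
    have e : ((fun z => F⁻¹ • f z) ⊓ fun z => G⁻¹ • g z) = m := by
      funext z
      simp only [Pi.inf_apply, smul_eq_mul, hm]
      rw [div_eq_inv_mul, div_eq_inv_mul]
    rwa [e] at h3
  have hmmid : 1 / (z1 - z0) ≤ m mid := by
    refine le_min ?_ ?_
    · rw [div_le_div_iff₀ hLpos hF]; linarith
    · rw [div_le_div_iff₀ hLpos hG]; linarith
  have hc1 : ConcaveOn ℝ (Icc z0 mid) m :=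
    hmc.subset (Icc_subset_Icc le_rfl hmidz1) (convex_Icc _ _)
  have hc2 : ConcaveOn ℝ (Icc mid z1) m :=
    hmc.subset (Icc_subset_Icc hz0mid le_rfl) (convex_Icc _ _)
  have hl1 := concave_lower hz0mid hc1 hm0 hmm
  have hl2 := concave_lower hmidz1 hc2 hm0 hmm
  have hquarter : ∀ x : ℝ, 0 ≤ x → ENNReal.ofReal ((z1 - z0) / 2 * (m mid / 2)) ≤
      ENNReal.ofReal ((z1 - z0) / 2 * ((x + m mid) / 2)) := by
    intro x hx
    apply ENNReal.ofReal_le_ofReal
    have : 0 ≤ (z1 - z0) / 2 := by linarith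
    exact mul_le_mul_of_nonneg_left (by linarith) this
  have e1 : mid - z0 = (z1 - z0) / 2 := by rw [hmid]; ring
  have e2 : z1 - mid = (z1 - z0) / 2 := by rw [hmid]; ring
  rw [e1] at hl1
  rw [e2] at hl2
  have hq1 : ENNReal.ofReal ((z1 - z0) / 2 * (m mid / 2)) ≤ ∫⁻ z in Icc z0 mid, ENNReal.ofReal (m z) := by
    refine le_trans ?_ hl1
    have := hquarter (m z0) (hm0 z0)
    exact this
  have hq2 : ENNReal.ofReal ((z1 - z0) / 2 * (m mid / 2)) ≤ ∫⁻ z in Icc mid z1, ENNReal.ofReal (m z) := by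
    refine le_trans ?_ hl2
    have := hquarter (m z1) (hm0 z1)
    rw [add_comm] at this
    exact this
  have hsplit : ∫⁻ z in Icc z0 z1, ENNReal.ofReal (m z) =
      (∫⁻ z in Icc z0 mid, ENNReal.ofReal (m z)) + ∫⁻ z in Icc mid z1, ENNReal.ofReal (m z) := by
    rw [← Icc_union_Ioc_eq_Icc hz0mid hmidz1, lintegral_union measurableSet_Ioc]
    · congr 1
      exact setLIntegral_congr Ioc_ae_eq_Icc
    · rw [Set.disjoint_left]
      rintro z ⟨_, h1⟩ ⟨h2, _⟩
      exact absurd h1 (not_le.2 h2)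
  have hx : 0 ≤ (z1 - z0) / 2 * (m mid / 2) := by
    have := hm0 mid
    positivity
  calc (2⁻¹ : ℝ≥0∞) = ENNReal.ofReal (1 / 2) := by
        rw [one_div, ENNReal.ofReal_inv_of_pos two_pos]; simp
    _ ≤ ENNReal.ofReal ((z1 - z0) / 2 * (m mid / 2) + (z1 - z0) / 2 * (m mid / 2)) := by
        apply ENNReal.ofReal_le_ofReal
        have h : (z1 - z0) * (1 / (z1 - z0)) ≤ (z1 - z0) * m mid :=
          mul_le_mul_of_nonneg_left hmmid hLpos.le
        rw [mul_one_div_cancel hLpos.ne'] at h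
        linarith
    _ = ENNReal.ofReal ((z1 - z0) / 2 * (m mid / 2)) + ENNReal.ofReal ((z1 - z0) / 2 * (m mid / 2)) :=
        ENNReal.ofReal_add hx hx
    _ ≤ (∫⁻ z in Icc z0 mid, ENNReal.ofReal (m z)) + ∫⁻ z in Icc mid z1, ENNReal.ofReal (m z) :=
        add_le_add hq1 hq2
    _ = ∫⁻ z in Icc z0 z1, ENNReal.ofReal (m z) := hsplit.symm
    _ ≤ ∫⁻ z, ENNReal.ofReal (m z) := setLIntegral_le_lintegral _ _


/-! ### slices of planar sets -/

/-- slice of a planar set at second coordinate `z` -/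
def slice (D : Set (ℝ × ℝ)) (z : ℝ) : Set ℝ := (fun y => (y, z)) ⁻¹' D

/-- length of the slice -/
noncomputable def wid (D : Set (ℝ × ℝ)) (z : ℝ) : ℝ := (volume (slice D z)).toReal

lemma slice_eq_image (D : Set (ℝ × ℝ)) (z : ℝ) :
    slice D z = Prod.fst '' (D ∩ {p | p.2 = z}) := by
  ext y
  constructor
  · intro hy
    exact ⟨(y, z), ⟨hy, rfl⟩, rfl⟩
  · rintro ⟨p, ⟨hp, hpz⟩, rfl⟩
    have hpz' : p.2 = z := hpz
    have e : (p.1, z) = p := by rw [← hpz']
    change (p.1, z) ∈ D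
    rw [e]; exact hp

lemma slice_compact {D : Set (ℝ × ℝ)} (hD : IsCompact D) (z : ℝ) : IsCompact (slice D z) := by
  rw [slice_eq_image]
  exact (hD.inter_right (isClosed_eq continuous_snd continuous_const)).image continuous_fst

lemma slice_convex {D : Set (ℝ × ℝ)} (hD : Convex ℝ D) (z : ℝ) : Convex ℝ (slice D z) := by
  intro y hy y' hy' a b ha hb hab
  have h := hD hy hy' ha hb hab
  have e : a • ((y, z) : ℝ × ℝ) + b • ((y', z) : ℝ × ℝ) = (a • y + b • y', z) := by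
    ext
    · simp
    · simp only [Prod.snd_add, Prod.smul_snd, smul_eq_mul]
      rw [← add_mul, hab, one_mul]
  rw [e] at h
  exact h

lemma slice_fin {D : Set (ℝ × ℝ)} (hD : IsCompact D) (z : ℝ) : volume (slice D z) ≠ ⊤ :=
  (slice_compact hD z).measure_lt_top.ne

lemma slice_eq_Icc {D : Set (ℝ × ℝ)} (hD : IsCompact D) (hDv : Convex ℝ D) {z : ℝ}
    (hne : (slice D z).Nonempty) :
    ∃ a b : ℝ, a ≤ b ∧ slice D z = Icc a b := by
  have h := eq_Icc_of_connected_compact ((slice_convex hDv z).isConnected hne) (slice_compact hD z)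
  refine ⟨_, _, ?_, h⟩
  rw [h] at hne
  exact nonempty_Icc.1 hne

lemma wid_nonneg (D : Set (ℝ × ℝ)) (z : ℝ) : 0 ≤ wid D z := ENNReal.toReal_nonneg

lemma wid_meas {D : Set (ℝ × ℝ)} (hD : MeasurableSet D) : Measurable (wid D) :=
  (measurable_measure_prodMk_right hD).ennreal_toReal

lemma ofReal_wid {D : Set (ℝ × ℝ)} (hD : IsCompact D) (z : ℝ) :
    ENNReal.ofReal (wid D z) = volume (slice D z) :=
  ENNReal.ofReal_toReal (slice_fin hD z)

lemma wid_lintegral {D : Set (ℝ × ℝ)} (hD : IsCompact D) :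
    ∫⁻ z, ENNReal.ofReal (wid D z) = volume D := by
  rw [Measure.volume_eq_prod, Measure.prod_apply_symm hD.measurableSet]
  refine lintegral_congr (fun z => ?_)
  exact ofReal_wid hD z

lemma wid_zero {D : Set (ℝ × ℝ)} {z : ℝ} (hz : z ∉ Prod.snd '' D) : wid D z = 0 := by
  have : slice D z = ∅ := by
    ext y
    simp only [mem_empty_iff_false, iff_false]
    intro hy
    exact hz ⟨(y, z), hy, rfl⟩
  simp [wid, this]

lemma wid_concave {D : Set (ℝ × ℝ)} (hD : IsCompact D) (hDv : Convex ℝ D) :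
    ConcaveOn ℝ (Prod.snd '' D) (wid D) := by
  refine ⟨hDv.is_linear_image (IsLinearMap.mk (fun _ _ => rfl) (fun _ _ => rfl)), ?_⟩
  rintro z ⟨p, hp, rfl⟩ z' ⟨p', hp', rfl⟩ s t hs ht hst
  have hne : (slice D p.2).Nonempty := ⟨p.1, hp⟩
  have hne' : (slice D p'.2).Nonempty := ⟨p'.1, hp'⟩
  obtain ⟨a, b, hab, hI⟩ := slice_eq_Icc hD hDv hne
  obtain ⟨a', b', hab', hI'⟩ := slice_eq_Icc hD hDv hne'
  have ha : (a, p.2) ∈ D := by
    have : a ∈ slice D p.2 := by rw [hI]; exact left_mem_Icc.2 hab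
    exact this
  have hb : (b, p.2) ∈ D := by
    have : b ∈ slice D p.2 := by rw [hI]; exact right_mem_Icc.2 hab
    exact this
  have ha' : (a', p'.2) ∈ D := by
    have : a' ∈ slice D p'.2 := by rw [hI']; exact left_mem_Icc.2 hab'
    exact this
  have hb' : (b', p'.2) ∈ D := by
    have : b' ∈ slice D p'.2 := by rw [hI']; exact right_mem_Icc.2 hab'
    exact this
  have hA : s * a + t * a' ∈ slice D (s • p.2 + t • p'.2) := by
    have h := hDv ha ha' hs ht hst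
    have e : s • ((a, p.2) : ℝ × ℝ) + t • ((a', p'.2) : ℝ × ℝ)
        = (s * a + t * a', s • p.2 + t • p'.2) := by
      ext <;> simp
    rw [e] at h
    exact h
  have hB : s * b + t * b' ∈ slice D (s • p.2 + t • p'.2) := by
    have h := hDv hb hb' hs ht hst
    have e : s • ((b, p.2) : ℝ × ℝ) + t • ((b', p'.2) : ℝ × ℝ)
        = (s * b + t * b', s • p.2 + t • p'.2) := by
      ext <;> simp
    rw [e] at h
    exact h
  have hsub : Icc (s * a + t * a') (s * b + t * b') ⊆ slice D (s • p.2 + t • p'.2) :=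
    (slice_convex hDv _).ordConnected.out hA hB
  have hvol : ENNReal.ofReal ((s * b + t * b') - (s * a + t * a')) ≤
      volume (slice D (s • p.2 + t • p'.2)) := by
    rw [← Real.volume_Icc]
    exact measure_mono hsub
  have hw : (s * b + t * b') - (s * a + t * a') ≤ wid D (s • p.2 + t • p'.2) :=
    (ENNReal.ofReal_le_iff_le_toReal (slice_fin hD _)).1 hvol
  have e1 : wid D p.2 = b - a := by
    rw [wid, hI, Real.volume_Icc, ENNReal.toReal_ofReal (sub_nonneg.2 hab)]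
  have e2 : wid D p'.2 = b' - a' := by
    rw [wid, hI', Real.volume_Icc, ENNReal.toReal_ofReal (sub_nonneg.2 hab')]
  rw [e1, e2]
  simp only [smul_eq_mul] at hw ⊢
  linarith

lemma wid_pos_Icc {D : Set (ℝ × ℝ)} (hD : IsCompact D) (hDv : Convex ℝ D) {z : ℝ}
    (hpos : 0 < wid D z) :
    ∃ a b : ℝ, a < b ∧ slice D z = Icc a b ∧ wid D z = b - a := by
  have hne : (slice D z).Nonempty := by
    by_contra hcon
    rw [Set.not_nonempty_iff_eq_empty] at hcon
    simp [wid, hcon] at hpos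
  obtain ⟨a, b, hab, hI⟩ := slice_eq_Icc hD hDv hne
  have e : wid D z = b - a := by
    rw [wid, hI, Real.volume_Icc, ENNReal.toReal_ofReal (sub_nonneg.2 hab)]
  exact ⟨a, b, by linarith, hI, e⟩

/-! ### the three-dimensional statement in coordinates -/

/-- shadow along the first axis -/
def D1 (K : Set (ℝ × ℝ × ℝ)) : Set (ℝ × ℝ) := (fun p : ℝ × ℝ × ℝ => (p.2.1, p.2.2)) '' K

/-- shadow along the second axis -/
def D2 (K : Set (ℝ × ℝ × ℝ)) : Set (ℝ × ℝ) := (fun p : ℝ × ℝ × ℝ => (p.1, p.2.2)) '' K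

/-- planar section of `K` at third coordinate `z` -/
def Kz (K : Set (ℝ × ℝ × ℝ)) (z : ℝ) : Set (ℝ × ℝ) := (fun w : ℝ × ℝ => (w.1, w.2, z)) ⁻¹' K

lemma D1_compact {K : Set (ℝ × ℝ × ℝ)} (hK : IsCompact K) : IsCompact (D1 K) :=
  hK.image (by fun_prop)

lemma D2_compact {K : Set (ℝ × ℝ × ℝ)} (hK : IsCompact K) : IsCompact (D2 K) :=
  hK.image (by fun_prop)

lemma D1_convex {K : Set (ℝ × ℝ × ℝ)} (hK : Convex ℝ K) : Convex ℝ (D1 K) :=
  hK.is_linear_image (IsLinearMap.mk (fun _ _ => rfl) (fun _ _ => rfl))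

lemma D2_convex {K : Set (ℝ × ℝ × ℝ)} (hK : Convex ℝ K) : Convex ℝ (D2 K) :=
  hK.is_linear_image (IsLinearMap.mk (fun _ _ => rfl) (fun _ _ => rfl))

lemma Kz_compact {K : Set (ℝ × ℝ × ℝ)} (hK : IsCompact K) (z : ℝ) : IsCompact (Kz K z) := by
  have e : Kz K z = (fun p : ℝ × ℝ × ℝ => (p.1, p.2.1)) '' (K ∩ {p | p.2.2 = z}) := by
    ext w
    constructor
    · intro hw
      exact ⟨(w.1, w.2, z), ⟨hw, rfl⟩, rfl⟩
    · rintro ⟨p, ⟨hp, hpz⟩, rfl⟩
      have hpz' : p.2.2 = z := hpz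
      change (p.1, p.2.1, z) ∈ K
      rw [← hpz']
      exact hp
  rw [e]
  exact (hK.inter_right (isClosed_eq (by fun_prop) continuous_const)).image (by fun_prop)

lemma Kz_convex {K : Set (ℝ × ℝ × ℝ)} (hK : Convex ℝ K) (z : ℝ) : Convex ℝ (Kz K z) := by
  intro w hw w' hw' a b ha hb hab
  have h := hK hw hw' ha hb hab
  have e : a • ((w.1, w.2, z) : ℝ × ℝ × ℝ) + b • ((w'.1, w'.2, z) : ℝ × ℝ × ℝ)
      = ((a • w + b • w').1, (a • w + b • w').2, z) := by
    ext
    · simp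
    · simp
    · simp only [Prod.snd_add, Prod.smul_snd, smul_eq_mul]
      rw [← add_mul, hab, one_mul]
  rw [e] at h
  exact h

lemma Kz_fst (K : Set (ℝ × ℝ × ℝ)) (z : ℝ) : Prod.fst '' Kz K z = slice (D2 K) z := by
  ext x
  constructor
  · rintro ⟨w, hw, rfl⟩
    exact ⟨(w.1, w.2, z), hw, rfl⟩
  · rintro ⟨p, hp, hpe⟩
    have h1 : p.1 = x := congrArg Prod.fst hpe
    have h2 : p.2.2 = z := congrArg Prod.snd hpe
    refine ⟨(x, p.2.1), ?_, rfl⟩
    change (x, p.2.1, z) ∈ K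
    rw [← h1, ← h2]
    exact hp

lemma Kz_snd (K : Set (ℝ × ℝ × ℝ)) (z : ℝ) : Prod.snd '' Kz K z = slice (D1 K) z := by
  ext y
  constructor
  · rintro ⟨w, hw, rfl⟩
    exact ⟨(w.1, w.2, z), hw, rfl⟩
  · rintro ⟨p, hp, hpe⟩
    have h1 : p.2.1 = y := congrArg Prod.fst hpe
    have h2 : p.2.2 = z := congrArg Prod.snd hpe
    refine ⟨(p.1, y), ?_, rfl⟩
    change (p.1, y, z) ∈ K
    rw [← h1, ← h2]
    exact hp

/-- the inequality in one slice -/
lemma slice_ineq {K : Set (ℝ × ℝ × ℝ)} (hKc : IsCompact K) (hKv : Convex ℝ K)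
    {B₁ B₂ : Set (ℝ × ℝ)} (hB₂ : MeasurableSet B₂)
    (hcov : ∀ p ∈ K, (p.2.1, p.2.2) ∈ B₁ ∨ (p.1, p.2.2) ∈ B₂) (z : ℝ)
    (hp : 0 < wid (D1 K) z) (hq : 0 < wid (D2 K) z) :
    wid (D2 K) z ≤ (volume (slice (B₂ ∩ D2 K) z)).toReal +
      wid (D2 K) z / wid (D1 K) z * (volume (slice (B₁ ∩ D1 K) z)).toReal := by
  obtain ⟨i0, i1, hi, hI, hwI⟩ := wid_pos_Icc (D1_compact hKc) (D1_convex hKv) hp
  obtain ⟨j0, j1, hj, hJ, hwJ⟩ := wid_pos_Icc (D2_compact hKc) (D2_convex hKv) hq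
  have hU : MeasurableSet {x : ℝ | (x, z) ∉ B₂} :=
    (measurable_prodMk_right hB₂).compl
  have hdisj : ∀ w ∈ Kz K z, w.1 ∈ {x : ℝ | (x, z) ∉ B₂} → w.2 ∈ {y : ℝ | (y, z) ∉ B₁} → False := by
    intro w hw h1 h2
    rcases hcov _ hw with h | h
    · exact h2 h
    · exact h1 h
  have hJ' : Prod.fst '' Kz K z = Icc j0 j1 := by rw [Kz_fst, hJ]
  have hI' : Prod.snd '' Kz K z = Icc i0 i1 := by rw [Kz_snd, hI]
  have hall := hall_core (Kz_compact hKc z) (Kz_convex hKv z) hJ' hI' hj hi hU hdisj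
  have e1 : Icc i0 i1 \ {y : ℝ | (y, z) ∉ B₁} = slice (B₁ ∩ D1 K) z := by
    rw [← hI]
    ext y
    simp only [slice, Set.mem_sdiff, mem_preimage, Set.mem_ofPred_eq, not_not, mem_inter_iff]
    tauto
  have e2 : {x : ℝ | (x, z) ∉ B₂} ∩ Icc j0 j1 = slice (D2 K) z \ {x : ℝ | (x, z) ∈ B₂} := by
    rw [← hJ]
    ext x
    simp only [slice, Set.mem_sdiff, mem_preimage, Set.mem_ofPred_eq, mem_inter_iff]
    tauto
  have e3 : slice (D2 K) z ∩ {x : ℝ | (x, z) ∈ B₂} = slice (B₂ ∩ D2 K) z := by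
    ext x
    simp only [slice, mem_preimage, Set.mem_ofPred_eq, mem_inter_iff]
    tauto
  rw [e1, e2] at hall
  have hsplit : volume (slice (D2 K) z ∩ {x : ℝ | (x, z) ∈ B₂}) +
      volume (slice (D2 K) z \ {x : ℝ | (x, z) ∈ B₂}) = volume (slice (D2 K) z) :=
    measure_inter_add_sdiff _ (measurable_prodMk_right hB₂)
  rw [e3] at hsplit
  have hfin2 : volume (slice (B₂ ∩ D2 K) z) ≠ ⊤ :=
    ((measure_mono (preimage_mono inter_subset_right)).trans_lt
      (slice_compact (D2_compact hKc) z).measure_lt_top).ne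
  have hfin1 : volume (slice (B₁ ∩ D1 K) z) ≠ ⊤ :=
    ((measure_mono (preimage_mono inter_subset_right)).trans_lt
      (slice_compact (D1_compact hKc) z).measure_lt_top).ne
  have hfin3 : volume (slice (D2 K) z \ {x : ℝ | (x, z) ∈ B₂}) ≠ ⊤ :=
    ((measure_mono Set.sdiff_subset).trans_lt
      (slice_compact (D2_compact hKc) z).measure_lt_top).ne
  have hr0 : 0 ≤ (j1 - j0) / (i1 - i0) := div_nonneg (by linarith) (by linarith)
  have hreal : (volume (slice (D2 K) z \ {x : ℝ | (x, z) ∈ B₂})).toReal ≤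
      (j1 - j0) / (i1 - i0) * (volume (slice (B₁ ∩ D1 K) z)).toReal := by
    have h := ENNReal.toReal_mono (ENNReal.mul_ne_top ENNReal.ofReal_ne_top hfin1) hall
    rw [ENNReal.toReal_mul, ENNReal.toReal_ofReal hr0] at h
    exact h
  have hsum : wid (D2 K) z = (volume (slice (B₂ ∩ D2 K) z)).toReal +
      (volume (slice (D2 K) z \ {x : ℝ | (x, z) ∈ B₂})).toReal := by
    rw [wid, ← hsplit, ENNReal.toReal_add hfin2 hfin3]
  rw [hwI, hwJ] at *
  linarith

/-- pointwise inequality used in the integration -/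
lemma pointwise_ineq {K : Set (ℝ × ℝ × ℝ)} (hKc : IsCompact K) (hKv : Convex ℝ K)
    {B₁ B₂ : Set (ℝ × ℝ)} (hB₂ : MeasurableSet B₂)
    (hcov : ∀ p ∈ K, (p.2.1, p.2.2) ∈ B₁ ∨ (p.1, p.2.2) ∈ B₂) (z : ℝ)
    {P Q : ℝ} (hP : 0 < P) (hQ : 0 < Q) :
    ENNReal.ofReal (min (wid (D1 K) z / P) (wid (D2 K) z / Q)) ≤
      volume (slice (B₁ ∩ D1 K) z) / ENNReal.ofReal P +
      volume (slice (B₂ ∩ D2 K) z) / ENNReal.ofReal Q := by
  rcases (wid_nonneg (D1 K) z).eq_or_lt with hp0 | hp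
  · have : min (wid (D1 K) z / P) (wid (D2 K) z / Q) ≤ 0 := by
      rw [← hp0, zero_div]; exact min_le_left _ _
    rw [ENNReal.ofReal_of_nonpos this]
    exact zero_le
  rcases (wid_nonneg (D2 K) z).eq_or_lt with hq0 | hq
  · have : min (wid (D1 K) z / P) (wid (D2 K) z / Q) ≤ 0 := by
      rw [← hq0, zero_div]; exact min_le_right _ _
    rw [ENNReal.ofReal_of_nonpos this]
    exact zero_le
  have hs := slice_ineq hKc hKv hB₂ hcov z hp hq
  have hfin2 : volume (slice (B₂ ∩ D2 K) z) ≠ ⊤ :=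
    ((measure_mono (preimage_mono inter_subset_right)).trans_lt
      (slice_compact (D2_compact hKc) z).measure_lt_top).ne
  have hfin1 : volume (slice (B₁ ∩ D1 K) z) ≠ ⊤ :=
    ((measure_mono (preimage_mono inter_subset_right)).trans_lt
      (slice_compact (D1_compact hKc) z).measure_lt_top).ne
  set β1 := (volume (slice (B₁ ∩ D1 K) z)).toReal with hβ1
  set β2 := (volume (slice (B₂ ∩ D2 K) z)).toReal with hβ2
  have hβ1n : 0 ≤ β1 := ENNReal.toReal_nonneg
  have hβ2n : 0 ≤ β2 := ENNReal.toReal_nonneg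
  rw [← ENNReal.ofReal_toReal hfin1, ← ENNReal.ofReal_toReal hfin2, ← hβ1, ← hβ2,
    ← ENNReal.ofReal_div_of_pos hP, ← ENNReal.ofReal_div_of_pos hQ,
    ← ENNReal.ofReal_add (div_nonneg hβ1n hP.le) (div_nonneg hβ2n hQ.le)]
  apply ENNReal.ofReal_le_ofReal
  set p := wid (D1 K) z with hpd
  set q := wid (D2 K) z with hqd
  set m := min (p / P) (q / Q) with hm
  have hm0 : 0 ≤ m := le_min (div_nonneg hp.le hP.le) (div_nonneg hq.le hQ.le)
  have h1 : 1 ≤ β1 / p + β2 / q := by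
    have e : β1 / p + β2 / q = (β2 + q / p * β1) / q := by field_simp; ring
    rw [e, le_div_iff₀ hq, one_mul]
    exact hs
  have h2 : m * (β1 / p) ≤ β1 / P := by
    calc m * (β1 / p) ≤ (p / P) * (β1 / p) :=
          mul_le_mul_of_nonneg_right (min_le_left _ _) (div_nonneg hβ1n hp.le)
      _ = β1 / P := by field_simp
  have h3 : m * (β2 / q) ≤ β2 / Q := by
    calc m * (β2 / q) ≤ (q / Q) * (β2 / q) :=
          mul_le_mul_of_nonneg_right (min_le_right _ _) (div_nonneg hβ2n hq.le)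
      _ = β2 / Q := by field_simp
  calc m = m * 1 := (mul_one m).symm
    _ ≤ m * (β1 / p + β2 / q) := mul_le_mul_of_nonneg_left h1 hm0
    _ = m * (β1 / p) + m * (β2 / q) := by ring
    _ ≤ β1 / P + β2 / Q := add_le_add h2 h3

/-- **Two cylinders along the first two coordinate axes.** -/
theorem coord_thm (K : Set (ℝ × ℝ × ℝ)) (hKc : IsCompact K) (hKv : Convex ℝ K)
    (B₁ B₂ : Set (ℝ × ℝ)) (hB₁ : MeasurableSet B₁) (hB₂ : MeasurableSet B₂)
    (hcov : ∀ p ∈ K, (p.2.1, p.2.2) ∈ B₁ ∨ (p.1, p.2.2) ∈ B₂)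
    (hD₁ : 0 < volume (D1 K)) (hD₂ : 0 < volume (D2 K)) :
    (2⁻¹ : ℝ≥0∞) ≤ volume B₁ / volume (D1 K) + volume B₂ / volume (D2 K) := by
  have hD1c := D1_compact hKc
  have hD2c := D2_compact hKc
  have hD1v := D1_convex hKv
  have hD2v := D2_convex hKv
  have hfin1 : volume (D1 K) ≠ ⊤ := hD1c.measure_lt_top.ne
  have hfin2 : volume (D2 K) ≠ ⊤ := hD2c.measure_lt_top.ne
  set P := (volume (D1 K)).toReal with hPd
  set Q := (volume (D2 K)).toReal with hQd
  have hP : 0 < P := ENNReal.toReal_pos hD₁.ne' hfin1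
  have hQ : 0 < Q := ENNReal.toReal_pos hD₂.ne' hfin2
  have hPe : volume (D1 K) = ENNReal.ofReal P := (ENNReal.ofReal_toReal hfin1).symm
  have hQe : volume (D2 K) = ENNReal.ofReal Q := (ENNReal.ofReal_toReal hfin2).symm
  -- the common range of the third coordinate
  have hZ : Prod.snd '' D2 K = Prod.snd '' D1 K := by
    simp only [D1, D2, Set.image_image]
  have hZc : IsCompact (Prod.snd '' D1 K) := hD1c.image continuous_snd
  have hZv : Convex ℝ (Prod.snd '' D1 K) :=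
    hD1v.is_linear_image (IsLinearMap.mk (fun _ _ => rfl) (fun _ _ => rfl))
  have hD1ne : (D1 K).Nonempty := by
    by_contra hcon
    rw [Set.not_nonempty_iff_eq_empty] at hcon
    rw [hcon, measure_empty] at hD₁
    exact lt_irrefl _ hD₁
  have hZne : (Prod.snd '' D1 K).Nonempty := hD1ne.image _
  have hZI := eq_Icc_of_connected_compact (hZv.isConnected hZne) hZc
  set z0 := sInf (Prod.snd '' D1 K) with hz0
  set z1 := sSup (Prod.snd '' D1 K) with hz1
  have h01 : z0 ≤ z1 := by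
    rw [hZI] at hZne
    exact nonempty_Icc.1 hZne
  have hf : ConcaveOn ℝ (Icc z0 z1) (wid (D1 K)) := by
    have := wid_concave hD1c hD1v
    rwa [hZI] at this
  have hg : ConcaveOn ℝ (Icc z0 z1) (wid (D2 K)) := by
    have := wid_concave hD2c hD2v
    rwa [hZ, hZI] at this
  have hfz : ∀ z, z ∉ Icc z0 z1 → wid (D1 K) z = 0 := by
    intro z hz
    rw [← hZI] at hz
    exact wid_zero hz
  have hgz : ∀ z, z ∉ Icc z0 z1 → wid (D2 K) z = 0 := by
    intro z hz
    rw [← hZI, ← hZ] at hz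
    exact wid_zero hz
  have hFi : ∫⁻ z, ENNReal.ofReal (wid (D1 K) z) = ENNReal.ofReal P := by
    rw [wid_lintegral hD1c, hPe]
  have hGi : ∫⁻ z, ENNReal.ofReal (wid (D2 K) z) = ENNReal.ofReal Q := by
    rw [wid_lintegral hD2c, hQe]
  have htv := tv_bound h01 hf hg (wid_nonneg _) (wid_nonneg _) hfz hgz
    (wid_meas hD1c.measurableSet) (wid_meas hD2c.measurableSet) hP hQ hFi hGi
  have hm1 : MeasurableSet (B₁ ∩ D1 K) := hB₁.inter hD1c.measurableSet
  have hm2 : MeasurableSet (B₂ ∩ D2 K) := hB₂.inter hD2c.measurableSet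
  have hb1 : Measurable (fun z => volume (slice (B₁ ∩ D1 K) z)) :=
    measurable_measure_prodMk_right hm1
  have hb2 : Measurable (fun z => volume (slice (B₂ ∩ D2 K) z)) :=
    measurable_measure_prodMk_right hm2
  have hI1 : ∫⁻ z, volume (slice (B₁ ∩ D1 K) z) = volume (B₁ ∩ D1 K) := by
    rw [Measure.volume_eq_prod, Measure.prod_apply_symm hm1]
    rfl
  have hI2 : ∫⁻ z, volume (slice (B₂ ∩ D2 K) z) = volume (B₂ ∩ D2 K) := by
    rw [Measure.volume_eq_prod, Measure.prod_apply_symm hm2]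
    rfl
  calc (2⁻¹ : ℝ≥0∞) ≤ ∫⁻ z, ENNReal.ofReal (min (wid (D1 K) z / P) (wid (D2 K) z / Q)) := htv
    _ ≤ ∫⁻ z, (volume (slice (B₁ ∩ D1 K) z) / ENNReal.ofReal P +
          volume (slice (B₂ ∩ D2 K) z) / ENNReal.ofReal Q) :=
        lintegral_mono (fun z => pointwise_ineq hKc hKv hB₂ hcov z hP hQ)
    _ = (∫⁻ z, volume (slice (B₁ ∩ D1 K) z)) / ENNReal.ofReal P +
          (∫⁻ z, volume (slice (B₂ ∩ D2 K) z)) / ENNReal.ofReal Q := by
        simp only [ENNReal.div_eq_inv_mul]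
        rw [lintegral_add_left (hb1.const_mul _), lintegral_const_mul _ hb1,
          lintegral_const_mul _ hb2]
    _ = volume (B₁ ∩ D1 K) / volume (D1 K) + volume (B₂ ∩ D2 K) / volume (D2 K) := by
        rw [hI1, hI2, ← hPe, ← hQe]
    _ ≤ volume B₁ / volume (D1 K) + volume B₂ / volume (D2 K) := by
        gcongr <;> exact inter_subset_left

end Vale.Agent.P243lib
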